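import Vale.Agent.Lib.P068.Defs

/-!
# Edmonds augmentation when one of the two matroids has finite defect
-/

open Set Matroid

namespace Vale.Agent.Lib.P068

variable {α : Type*} {M N K : Matroid α} {J A : Set α} {e x y : α}

/-- If `y ∈ cl J \ J` and every `x ∈ J \ A` lies outside the fundamental circuit of `y`,
then `y ∈ cl A`. -/
lemma mem_closure_of_forall (hJ : K.Indep J) (hy : y ∈ K.closure J) (hyJ : y ∉ J)
    (h : ∀ x ∈ J \ A, y ∈ K.closure (J \ {x})) : y ∈ K.closure A := by
  have hC := hJ.fundCircuit_isCircuit hy hyJ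
  have hyC : y ∈ K.closure (K.fundCircuit y J \ {y}) :=
    hC.mem_closure_sdiff_singleton_of_mem (K.mem_fundCircuit y J)
  refine K.closure_subset_closure ?_ hyC
  rintro z ⟨hzC, hzy⟩
  have hzy' : z ≠ y := hzy
  have hzJ : z ∈ J := by
    have := K.fundCircuit_subset_insert y J hzC
    rcases this with rfl | h'
    · exact absurd rfl hzy'
    · exact h'
  by_contra hzA
  have hz := h z ⟨hzJ, hzA⟩
  have hind := (hJ.mem_fundCircuit_iff hy hyJ).1 hzC
  have hins : insert y J \ {z} = insert y (J \ {z}) := by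
    ext w
    simp only [mem_sdiff, mem_insert_iff, mem_singleton_iff]
    constructor
    · rintro ⟨rfl | h1, h2⟩
      · exact Or.inl rfl
      · exact Or.inr ⟨h1, h2⟩
    · rintro (rfl | ⟨h1, h2⟩)
      · exact ⟨Or.inl rfl, fun h => hzy' h.symm⟩
      · exact ⟨Or.inr h1, h2⟩
  rw [hins] at hind
  have hyndiff : y ∉ J \ {z} := fun h' => hyJ h'.1
  exact ((hJ.sdiff {z}).insert_indep_iff_of_notMem hyndiff).1 hind |>.2 <| hz

/-- `Path M N J n y`: from the element `y` one reaches, in `n` double steps of the Edmonds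
exchange digraph of `J`, an element outside `cl_N J`. -/
def Path (M N : Matroid α) (J : Set α) : ℕ → α → Prop
  | 0, y => y ∈ N.E \ N.closure J
  | n + 1, y => y ∈ N.closure J ∧ y ∉ J ∧ ∃ x ∈ J, y ∉ N.closure (J \ {x}) ∧
      ∃ y', y' ∈ M.closure J ∧ y' ∉ J ∧ y' ∉ M.closure (J \ {x}) ∧ Path M N J n y'

/-- Contracting one more element outside the closure lowers the rank by one. -/
lemma eRank_contract_insert (hJ : K.Indep J) (he : e ∈ K.E \ K.closure J) :
    (K ／ insert e J).eRank + 1 = (K ／ J).eRank := by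
  have heJ : e ∉ J := fun h => he.2 (K.mem_closure_of_mem' h)
  have hind : K.Indep (insert e J) := (hJ.insert_indep_iff_of_notMem heJ).2 he
  obtain ⟨B, hB⟩ := (K ／ insert e J).exists_isBase
  have hB' := (hind.contract_isBase_iff).1 hB
  have hBe : e ∉ B := fun h => by
    have := hB'.2.ne_of_mem h (mem_insert e J)
    exact this rfl
  have hJB : (K ／ J).IsBase (insert e B) := by
    rw [hJ.contract_isBase_iff]
    refine ⟨?_, ?_⟩
    · have : insert e B ∪ J = B ∪ insert e J := by
        ext w; simp only [mem_union, mem_insert_iff]; tauto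
      rw [this]; exact hB'.1
    · rw [disjoint_insert_left]
      refine ⟨heJ, ?_⟩
      exact hB'.2.mono_right (subset_insert e J)
  rw [← hB.encard_eq_eRank, ← hJB.encard_eq_eRank, encard_insert_of_notMem hBe]

variable (M N)

/-- One round of augmentation: a source with a path gives a common independent set of
smaller `M`-defect. -/
lemma augment (n : ℕ) :
    ∀ J y, M.Indep J → N.Indep J → y ∈ M.E \ M.closure J → Path M N J n y →
      ∃ J', M.Indep J' ∧ N.Indep J' ∧ (M ／ J').eRank + 1 = (M ／ J).eRank := by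
  induction n using Nat.strong_induction_on with
  | _ n IH =>
  intro J y hJM hJN hy hpath
  by_cases hmin : ∃ m < n, ∃ z, z ∈ M.E \ M.closure J ∧ Path M N J m z
  · obtain ⟨m, hmn, z, hz, hzp⟩ := hmin
    exact IH m hmn J z hJM hJN hz hzp
  push Not at hmin
  have hyJ : y ∉ J := fun h => hy.2 (M.mem_closure_of_mem' h)
  have hyins : M.Indep (insert y J) := (hJM.insert_indep_iff_of_notMem hyJ).2 hy
  cases n with
  | zero =>
    refine ⟨insert y J, hyins, ?_, eRank_contract_insert hJM hy⟩
    exact (hJN.insert_indep_iff_of_notMem hyJ).2 hpath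
  | succ n' =>
    obtain ⟨hyN, -, x, hxJ, hyx, y₁, hy₁M, hy₁J, hy₁x, hy₁p⟩ := hpath
    -- the new set
    set J₁ := insert y (J \ {x}) with hJ₁
    have hxy : x ≠ y := fun h => hyJ (h ▸ hxJ)
    have hJ₁eq : insert y J \ {x} = J₁ := by
      ext w
      simp only [hJ₁, mem_sdiff, mem_insert_iff, mem_singleton_iff]
      constructor
      · rintro ⟨rfl | h1, h2⟩
        · exact Or.inl rfl
        · exact Or.inr ⟨h1, h2⟩
      · rintro (rfl | ⟨h1, h2⟩)
        · exact ⟨Or.inl rfl, fun h => hxy h.symm⟩
        · exact ⟨Or.inr h1, h2⟩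
    have hJ₁M : M.Indep J₁ := hJ₁eq ▸ hyins.sdiff {x}
    have hJ₁N : N.Indep J₁ := by
      have hyndiff : y ∉ J \ {x} := fun h' => hyJ h'.1
      rw [hJ₁]
      refine ((hJN.sdiff {x}).insert_indep_iff_of_notMem hyndiff).2
        ⟨N.closure_subset_ground _ hyN, hyx⟩
    -- `N`-closure unchanged
    have hclN : N.closure J₁ = N.closure J := by
      have hx' : x ∈ N.closure (insert y J \ {x}) := by
        rw [hJ₁eq]
        have hxN : x ∈ N.closure (insert y (J \ {x})) \ N.closure (J \ {x}) := by
          refine closure_exchange ⟨?_, hyx⟩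
          have : insert x (J \ {x}) = J := insert_sdiff_self_of_mem hxJ
          rw [this]; exact hyN
        exact hxN.1
      rw [← hJ₁eq]
      exact hJN.closure_insert_sdiff_eq_of_mem_closure hyN hx'
    -- the rank is unchanged
    have hxins : x ∈ M.E \ M.closure J₁ := by
      refine ⟨hJM.subset_ground hxJ, ?_⟩
      rw [← hJ₁eq]
      exact hyins.notMem_closure_sdiff_of_mem (mem_insert_of_mem _ hxJ)
    have hinsert : insert x J₁ = insert y J := by
      rw [← hJ₁eq]
      exact insert_sdiff_self_of_mem (mem_insert_of_mem _ hxJ)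
    have hrk : (M ／ J₁).eRank = (M ／ J).eRank := by
      have h1 := eRank_contract_insert hJ₁M hxins
      have h2 := eRank_contract_insert hJM hy
      rw [hinsert] at h1
      rw [← h1, h2]
    -- `y₁` is a source for `J₁`
    have hsrc : ∀ z, z ∈ M.closure J → z ∉ M.closure (J \ {x}) → z ∉ M.closure J₁ := by
      intro z hzJ hzx hzJ₁
      have := closure_exchange (M := M) (e := z) (f := y) (X := J \ {x}) ⟨by rwa [← hJ₁], hzx⟩
      have h2 : M.closure (insert z (J \ {x})) ⊆ M.closure J :=
        M.closure_subset_closure_of_subset_closure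
          (insert_subset hzJ (subset_trans sdiff_subset (M.subset_closure J hJM.subset_ground)))
      exact hy.2 (h2 this.1)
    -- key facts from minimality
    have hkey : ∀ m, m < n' → ∀ x' ∈ J, y ∉ N.closure (J \ {x'}) → ∀ z, z ∈ M.closure J →
        z ∉ J → z ∉ M.closure (J \ {x'}) → ¬ Path M N J m z := by
      intro m hm x' hx' hyx' z hzM hzJ hzx' hzp
      have hyNE : y ∈ N.closure J := hyN
      exact hmin (m + 1) (by omega) y hy ⟨hyNE, hyJ, x', hx', hyx', z, hzM, hzJ, hzx', hzp⟩
    -- transfer of paths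
    have htransfer : ∀ m, m ≤ n' → ∀ z, z ∈ M.closure J → Path M N J m z → Path M N J₁ m z := by
      intro m
      induction m with
      | zero =>
        intro _ z _ hzp
        refine ⟨hzp.1, ?_⟩
        rw [hclN]; exact hzp.2
      | succ m IHm =>
        intro hm z hzM hzp
        obtain ⟨hzN, hzJ, x₂, hx₂J, hzx₂, z', hz'M, hz'J, hz'x₂, hz'p⟩ := hzp
        have hmlt : m < n' := by omega
        -- `y ∈ cl_N (J \ {x₂})`
        have hyx₂ : y ∈ N.closure (J \ {x₂}) := by
          by_contra hcon
          exact hkey m hmlt x₂ hx₂J hcon z' hz'M hz'J hz'x₂ hz'p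
        have hx₂x : x₂ ≠ x := by
          rintro rfl
          exact hyx hyx₂
        -- `z' ∈ cl_M (J \ {x})`
        have hz'x : z' ∈ M.closure (J \ {x}) := by
          by_contra hcon
          exact hkey m hmlt x hxJ hyx z' hz'M hz'J hcon hz'p
        have hzy : z ≠ y := by
          rintro rfl
          exact hy.2 hzM
        have hz'y : z' ≠ y := by
          rintro rfl
          exact hy.2 hz'M
        have hJ₁x₂ : J₁ \ {x₂} = insert y ((J \ {x}) \ {x₂}) := by
          ext w
          simp only [hJ₁, mem_sdiff, mem_insert_iff, mem_singleton_iff]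
          constructor
          · rintro ⟨rfl | h1, h2⟩
            · exact Or.inl rfl
            · exact Or.inr ⟨h1, h2⟩
          · rintro (rfl | ⟨h1, h2⟩)
            · refine ⟨Or.inl rfl, ?_⟩
              rintro rfl
              exact hyJ hx₂J
            · exact ⟨Or.inr h1, h2⟩
        have hsub : (J \ {x}) \ {x₂} ⊆ J \ {x₂} := fun w hw => ⟨hw.1.1, hw.2⟩
        refine ⟨by rw [hclN]; exact hzN, ?_, x₂, ?_, ?_, z', ?_, ?_, ?_, IHm (by omega) z' hz'M hz'p⟩
        · rw [hJ₁]
          rintro (rfl | h)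
          · exact hzy rfl
          · exact hzJ h.1
        · rw [hJ₁]
          exact Or.inr ⟨hx₂J, hx₂x⟩
        · rw [hJ₁x₂]
          intro hcon
          refine hzx₂ (N.closure_subset_closure_of_subset_closure ?_ hcon)
          refine insert_subset hyx₂ ?_
          exact subset_trans hsub (N.subset_closure _ (subset_trans sdiff_subset hJN.subset_ground))
        · refine M.closure_subset_closure (?_ : J \ {x} ⊆ J₁) hz'x
          rw [hJ₁]; exact subset_insert _ _
        · rw [hJ₁]
          rintro (rfl | h)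
          · exact hz'y rfl
          · exact hz'J h.1
        · rw [hJ₁x₂]
          intro hcon
          -- exchange
          have h0 : z' ∉ M.closure ((J \ {x}) \ {x₂}) := fun h =>
            hz'x₂ (M.closure_subset_closure hsub h)
          have h1 := closure_exchange (M := M) (e := z') (f := y) (X := (J \ {x}) \ {x₂}) ⟨hcon, h0⟩
          have h2 : M.closure (insert z' ((J \ {x}) \ {x₂})) ⊆ M.closure J :=
            M.closure_subset_closure_of_subset_closure
              (insert_subset hz'M (subset_trans (subset_trans hsub sdiff_subset)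
                (M.subset_closure J hJM.subset_ground)))
          exact hy.2 (h2 h1.1)
    have hy₁src : y₁ ∈ M.E \ M.closure J₁ :=
      ⟨M.closure_subset_ground _ hy₁M, hsrc y₁ hy₁M hy₁x⟩
    have hy₁p' : Path M N J₁ n' y₁ := htransfer n' le_rfl y₁ hy₁M hy₁p
    obtain ⟨J', h1, h2, h3⟩ := IH n' (by omega) J₁ y₁ hJ₁M hJ₁N hy₁src hy₁p'
    exact ⟨J', h1, h2, by rw [h3, hrk]⟩

/-- No source reaches a sink: the Edmonds cut. -/
lemma cut (hE : M.E = N.E) (J : Set α) (hJM : M.Indep J) (hJN : N.Indep J)
    (h : ∀ n y, y ∈ M.E \ M.closure J → ¬ Path M N J n y) : SatisfiesIntersection M N := by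
  classical
  set X : Set α := {x | x ∈ J ∧ ∃ y', y' ∈ M.closure J ∧ y' ∉ J ∧ y' ∉ M.closure (J \ {x}) ∧
    ∃ n, Path M N J n y'} with hX
  have hXJ : X ⊆ J := fun x hx => hx.1
  refine ⟨X, J \ X, disjoint_sdiff_right, ?_, ?_, ?_⟩
  · rwa [union_sdiff_cancel hXJ]
  · rwa [union_sdiff_cancel hXJ]
  apply subset_antisymm
  · refine union_subset (M.closure_subset_ground _) ?_
    rw [hE]; exact N.closure_subset_ground _
  intro e he
  by_cases heJ : e ∈ J
  · by_cases heX : e ∈ X
    · exact Or.inl (M.mem_closure_of_mem' heX he)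
    · exact Or.inr (N.mem_closure_of_mem' ⟨heJ, heX⟩ (hE ▸ he))
  by_cases hp : ∃ n, Path M N J n e
  · left
    obtain ⟨n, hn⟩ := hp
    have heM : e ∈ M.closure J := by
      by_contra hcon
      exact h n e ⟨he, hcon⟩ hn
    refine mem_closure_of_forall hJM heM heJ ?_
    rintro x ⟨hxJ, hxX⟩
    by_contra hcon
    exact hxX ⟨hxJ, e, heM, heJ, hcon, n, hn⟩
  · right
    push Not at hp
    have heN : e ∈ N.closure J := by
      by_contra hcon
      exact hp 0 ⟨hE ▸ he, hcon⟩
    refine mem_closure_of_forall hJN heN heJ ?_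
    rintro x ⟨hxJ, hxX⟩
    have hxX' : x ∈ X := by
      by_contra hcon
      exact hxX ⟨hxJ, hcon⟩
    obtain ⟨-, y', h1, h2, h3, n, hn⟩ := hxX'
    by_contra hcon
    exact hp (n + 1) ⟨heN, heJ, x, hxJ, hcon, y', h1, h2, h3, hn⟩

/-- **Finite defect theorem**, natural-number form. -/
lemma sat_of_defect (hE : M.E = N.E) (k : ℕ) :
    ∀ J, M.Indep J → N.Indep J → (M ／ J).eRank = k → SatisfiesIntersection M N := by
  induction k with
  | zero =>
    intro J hJM hJN hk
    by_cases h : ∀ n y, y ∈ M.E \ M.closure J → ¬ Path M N J n y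
    · exact cut M N hE J hJM hJN h
    push Not at h
    obtain ⟨n, y, hy, hp⟩ := h
    obtain ⟨J', _, _, h3⟩ := augment M N n J y hJM hJN hy hp
    rw [hk] at h3
    simp at h3
  | succ k IH =>
    intro J hJM hJN hk
    by_cases h : ∀ n y, y ∈ M.E \ M.closure J → ¬ Path M N J n y
    · exact cut M N hE J hJM hJN h
    push Not at h
    obtain ⟨n, y, hy, hp⟩ := h
    obtain ⟨J', h1, h2, h3⟩ := augment M N n J y hJM hJN hy hp
    refine IH J' h1 h2 ?_
    rw [hk] at h3
    have : (M ／ J').eRank + 1 = (k : ℕ∞) + 1 := by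
      rw [h3]; push_cast; rfl
    exact ENat.add_left_injective_of_ne_top (n := 1) (by simp) this

/-- **Finite defect theorem.** If a common independent set `J` has `M ／ J` of finite rank then
`(M, N)` satisfies intersection. -/
theorem sat_of_rankFinite (hE : M.E = N.E) {J : Set α} (hJM : M.Indep J) (hJN : N.Indep J)
    (hfin : (M ／ J).RankFinite) : SatisfiesIntersection M N := by
  have h : (M ／ J).eRank ≠ ⊤ := (eRank_ne_top_iff _).2 hfin
  obtain ⟨k, hk⟩ := ENat.ne_top_iff_exists.1 h
  exact sat_of_defect M N hE k J hJM hJN hk.symm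

variable {M N}

/-- Intersection is symmetric. -/
lemma SatisfiesIntersection.symm (hE : M.E = N.E) (h : SatisfiesIntersection M N) :
    SatisfiesIntersection N M := by
  obtain ⟨JM, JN, hd, h1, h2, h3⟩ := h
  refine ⟨JN, JM, hd.symm, by rwa [union_comm], by rwa [union_comm], ?_⟩
  rw [union_comm, h3, hE]

/-- The same with the finite defect on the other side. -/
theorem sat_of_rankFinite' (hE : M.E = N.E) {J : Set α} (hJM : M.Indep J) (hJN : N.Indep J)
    (hfin : (N ／ J).RankFinite) : SatisfiesIntersection M N :=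
  (sat_of_rankFinite N M hE.symm hJN hJM hfin).symm hE.symm

end Vale.Agent.Lib.P068
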