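import Vale.Agent.Lib.P068.Sum

/-!
# Arbitrary matroid against a finite direct sum of nearly uniform matroids: matroid lemmas
-/

open Set Matroid

namespace Vale.Agent.Lib.P068

variable {α ι : Type*}

section basics

variable {M K L : Matroid α} {I J X Y Z A B C D : Set α} {e : α}

lemma over_mono (h : (M ／ X).Indep I) (hYX : Y ⊆ X) : (M ／ Y).Indep I := by
  have h' : M ／ X = M ／ Y ／ X := by rw [contract_contract, union_eq_right.2 hYX]
  rw [h'] at h
  exact h.of_contract

lemma over_union (hA : (M ／ Z).Indep A) (hI : (M ／ Y).Indep I) (hAY : A ⊆ Y) (hZY : Z ⊆ Y) :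
    (M ／ Z).Indep (I ∪ A) := by
  have h' : M ／ Y = M ／ Z ／ Y := by rw [contract_contract, union_eq_right.2 hZY]
  rw [h'] at hI
  exact indep_union_of_contract hI hA hAY

lemma indep_of_restrict_contract (h : ((M ↾ A) ／ C).Indep I) (_hA : A ⊆ M.E)
    (hC : C ∩ M.E ⊆ A) : (M ／ C).Indep I := by
  have e1 : (M ↾ A) ／ C = (M ↾ A) ／ (C ∩ A) := by
    rw [← contract_inter_ground_eq (M ↾ A) C, restrict_ground_eq]
  rw [e1, restrict_contract_eq_contract_restrict M inter_subset_right,
    restrict_indep_iff] at h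
  have e2 : M ／ C = M ／ (C ∩ A) := by
    rw [contract_eq_contract_iff]
    ext x
    constructor
    · rintro ⟨hx, hxE⟩
      exact ⟨⟨hx, hC ⟨hx, hxE⟩⟩, hxE⟩
    · rintro ⟨⟨hx, -⟩, hxE⟩
      exact ⟨hx, hxE⟩
  rw [e2]
  exact h.1

lemma FD.of_contract (hD : K.Indep D) (h : FD (K ／ D) X) : FD K (X ∪ D) := by
  obtain ⟨B, hB, hXB, hfin⟩ := h
  rw [hD.contract_isBase_iff] at hB
  refine ⟨B ∪ D, hB.1, union_subset_union_left _ hXB, hfin.subset ?_⟩
  rintro a ⟨ha | ha, ha'⟩
  · exact ⟨ha, fun hc => ha' (Or.inl hc)⟩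
  · exact absurd (Or.inr ha) ha'

lemma FD.restrict_union {A₁ A₂ J₁ J₂ : Set α} (hA₁ : A₁ ⊆ M.E) (hA₂ : A₂ ⊆ (M ／ A₁).E)
    (h₁ : FD (M ↾ A₁) J₁) (h₂ : FD ((M ／ A₁) ↾ A₂) J₂) :
    FD (M ↾ (A₁ ∪ A₂)) (J₁ ∪ J₂) := by
  obtain ⟨D₁, hD₁, hJ₁, hf₁⟩ := h₁
  obtain ⟨D₂, hD₂, hJ₂, hf₂⟩ := h₂
  rw [isBase_restrict_iff hA₁] at hD₁
  rw [isBase_restrict_iff hA₂] at hD₂
  have hb : M.IsBasis (D₂ ∪ D₁) (A₂ ∪ A₁) := by
    refine isBasis_union_of hD₂.indep hD₁ ?_ hD₂.subset
    intro a ha
    have := hD₂.subset_closure ha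
    rw [contract_closure_eq] at this
    exact this.1
  have hgr : A₁ ∪ A₂ ⊆ M.E := by
    refine union_subset hA₁ (subset_trans hA₂ ?_)
    rw [contract_ground]
    exact sdiff_subset
  refine ⟨D₁ ∪ D₂, ?_, union_subset_union hJ₁ hJ₂, (hf₁.union hf₂).subset ?_⟩
  · rw [isBase_restrict_iff hgr, union_comm A₁ A₂, union_comm D₁ D₂]
    exact hb
  · rintro a ⟨ha | ha, ha'⟩
    · exact Or.inl ⟨ha, fun hc => ha' (Or.inl hc)⟩
    · exact Or.inr ⟨ha, fun hc => ha' (Or.inr hc)⟩

/-- Making room for a finite addition to a given independent set. -/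
lemma exists_finite_sdiff_union_indep (hI : K.Indep I) (hD : K.Indep D) (hfin : (D \ I).Finite) :
    ∃ F : Set α, F.Finite ∧ K.Indep ((I \ F) ∪ D) := by
  have key : ∀ S : Set α, S.Finite → S ⊆ D →
      ∃ F : Set α, F.Finite ∧ Disjoint F D ∧ K.Indep ((I \ F) ∪ S) := by
    intro S hS
    induction S, hS using Set.Finite.induction_on with
    | empty =>
      intro _
      refine ⟨∅, finite_empty, empty_disjoint _, ?_⟩
      simpa using hI
    | @insert e S he hS ih =>
      intro hsub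
      obtain ⟨F, hF, hFD, hT⟩ := ih (subset_trans (subset_insert e S) hsub)
      have heD : e ∈ D := hsub (mem_insert e S)
      have heE : e ∈ K.E := hD.subset_ground heD
      by_cases het : e ∈ (I \ F) ∪ S
      · refine ⟨F, hF, hFD, hT.subset ?_⟩
        rintro a (ha | ha | ha)
        · exact Or.inl ha
        · rw [ha]; exact het
        · exact Or.inr ha
      by_cases hcl : e ∈ K.closure ((I \ F) ∪ S)
      · have hC := hT.fundCircuit_isCircuit hcl het
        have hnot : ¬ K.fundCircuit e ((I \ F) ∪ S) ⊆ D := fun h' =>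
          hC.not_indep (hD.subset h')
        rw [not_subset] at hnot
        obtain ⟨x, hxC, hxD⟩ := hnot
        have hxe : x ≠ e := fun h' => hxD (h' ▸ heD)
        have hxT : x ∈ (I \ F) ∪ S := by
          rcases K.fundCircuit_subset_insert e _ hxC with h' | h'
          · exact absurd h' hxe
          · exact h'
        have hind := (hT.mem_fundCircuit_iff hcl het).1 hxC
        refine ⟨F ∪ {x}, hF.union (finite_singleton x), ?_, hind.subset ?_⟩
        · rw [disjoint_union_left]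
          exact ⟨hFD, by simpa using hxD⟩
        · rintro a (⟨haI, haF⟩ | ha | ha)
          · have hax : a ≠ x := fun h' => haF (Or.inr h')
            exact ⟨Or.inr (Or.inl ⟨haI, fun h' => haF (Or.inl h')⟩), hax⟩
          · rw [ha]
            exact ⟨Or.inl rfl, fun h' => hxe h'.symm⟩
          · have hax : a ≠ x := fun h' => hxD (h' ▸ hsub (Or.inr ha))
            exact ⟨Or.inr (Or.inr ha), hax⟩
      · refine ⟨F, hF, hFD, ?_⟩
        have := (hT.insert_indep_iff_of_notMem het).2 ⟨heE, hcl⟩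
        refine this.subset ?_
        rintro a (ha | ha | ha)
        · exact Or.inr (Or.inl ha)
        · exact Or.inl ha
        · exact Or.inr (Or.inr ha)
  obtain ⟨F, hF, hFD, hT⟩ := key (D \ I) hfin sdiff_subset
  refine ⟨F, hF, hT.subset ?_⟩
  rintro a (ha | ha)
  · exact Or.inl ha
  · by_cases haI : a ∈ I
    · exact Or.inl ⟨haI, fun h' => disjoint_left.1 hFD h' ha⟩
    · exact Or.inr ⟨ha, haI⟩

lemma NearlyUniform.contract (hN : NearlyUniform K) (hD : K.Indep D) :
    NearlyUniform (K ／ D) := by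
  intro X hX
  have hDE : D ⊆ K.E := hD.subset_ground
  have hXE : X ⊆ K.E := subset_trans hX (by rw [contract_ground]; exact sdiff_subset)
  have hXD : Disjoint X D := by
    rw [disjoint_left]
    intro a ha hb
    have := hX ha
    rw [contract_ground] at this
    exact this.2 hb
  obtain ⟨F, hF, hFE, h | h⟩ := hN (X ∪ D) (union_subset hXE hDE)
  · -- independent case
    obtain ⟨F₂, hF₂, hind⟩ := exists_finite_sdiff_union_indep h hD (hF.subset (by
      rintro a ⟨ha, ha'⟩
      by_contra hc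
      exact ha' ⟨Or.inr ha, hc⟩))
    refine ⟨(F ∪ F₂) ∩ (K ／ D).E, (hF.union hF₂).inter_of_left _, inter_subset_right, Or.inl ?_⟩
    rw [hD.contract_indep_iff]
    refine ⟨hXD.mono_left sdiff_subset, hind.subset ?_⟩
    rintro a (⟨ha, ha'⟩ | ha)
    · refine Or.inl ⟨⟨Or.inl ha, fun hc => ha' ⟨Or.inl hc, hX ha⟩⟩, fun hc => ha' ⟨Or.inr hc, hX ha⟩⟩
    · exact Or.inr ha
  · -- spanning case
    refine ⟨F \ D, hF.subset sdiff_subset, ?_, Or.inr ?_⟩
    · rw [contract_ground]
      exact sdiff_subset_sdiff_left hFE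
    · rw [contract_spanning_iff hDE]
      constructor
      · convert h using 1
        ext a
        simp only [mem_union, mem_sdiff]
        tauto
      · rw [disjoint_union_left]
        exact ⟨hXD, disjoint_sdiff_left⟩

end basics

end Vale.Agent.Lib.P068
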