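import Vale.Agent.Lib.P068.Blocks

/-!
# Coloured ground sets: solutions and the gluing lemmas
-/

open Set Matroid

namespace Vale.Agent.Lib.P068

variable {α ι : Type*}

/-- `M` is a matroid whose elements are coloured by `c` with colours in `W`, and for each colour
`i ∈ W`, `N i` is a nearly uniform matroid on the elements of colour `i`. -/
structure Inst (c : α → ι) (M : Matroid α) (N : ι → Matroid α) (W : Set ι) : Prop where
  sub : M.E ⊆ c ⁻¹' W
  gr : ∀ i ∈ W, (N i).E = M.E ∩ c ⁻¹' {i}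
  nu : ∀ i ∈ W, NearlyUniform (N i)

/-- A solution: the colours split into `R` (on which `J` has finite defect in `M`) and `W \ R`
(on which `J` is independent over the colours of `R` in `M`, and has finite defect in `N i`). -/
structure IsSol (c : α → ι) (M : Matroid α) (N : ι → Matroid α) (W R : Set ι) (J : Set α) :
    Prop where
  RW : R ⊆ W
  ind : ∀ i ∈ W, (N i).Indep (J ∩ c ⁻¹' {i})
  fdR : FD (M ↾ (M.E ∩ c ⁻¹' R)) (J ∩ c ⁻¹' R)
  indS : (M ／ c ⁻¹' R).Indep (J \ c ⁻¹' R)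
  fdS : ∀ i ∈ W \ R, FD (N i) (J ∩ c ⁻¹' {i})

/-- Existence of a solution. -/
def Sol (c : α → ι) (M : Matroid α) (N : ι → Matroid α) (W : Set ι) : Prop :=
  ∃ R J, IsSol c M N W R J

variable {c : α → ι} {M : Matroid α} {N : ι → Matroid α} {W P R Z : Set ι} {g : ι}
  {J V G : Set α}

lemma IsSol.subset_ground (h : IsSol c M N W R J) : J ⊆ M.E := by
  intro x hx
  by_cases hxR : c x ∈ R
  · obtain ⟨D, hD, hJD, -⟩ := h.fdR
    exact (hD.subset_ground (hJD ⟨hx, hxR⟩)).1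
  · have := h.indS.subset_ground (⟨hx, hxR⟩ : x ∈ J \ c ⁻¹' R)
    rw [contract_ground] at this
    exact this.1

lemma IsSol.mem_W (hM : Inst c M N W) (h : IsSol c M N W R J) {x : α} (hx : x ∈ J) : c x ∈ W :=
  hM.sub (h.subset_ground hx)

lemma Inst.restrict_away (hM : Inst c M N W) (P : Set ι) :
    Inst c (M ↾ (M.E \ c ⁻¹' P)) N (W \ P) := by
  refine ⟨?_, ?_, fun i hi => hM.nu i hi.1⟩
  · rintro x ⟨hx, hxP⟩
    exact ⟨hM.sub hx, hxP⟩
  · rintro i ⟨hiW, hiP⟩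
    rw [hM.gr i hiW]
    ext x
    constructor
    · rintro ⟨hx, hi⟩
      refine ⟨⟨hx, ?_⟩, hi⟩
      intro hc
      have hci : c x = i := hi
      exact hiP (hci ▸ hc)
    · rintro ⟨⟨hx, -⟩, hi⟩
      exact ⟨hx, hi⟩

lemma Inst.contract_color (hM : Inst c M N W) (g : ι) :
    Inst c (M ／ c ⁻¹' {g}) N (W \ {g}) := by
  refine ⟨?_, ?_, fun i hi => hM.nu i hi.1⟩
  · rintro x hx
    rw [contract_ground] at hx
    exact ⟨hM.sub hx.1, hx.2⟩
  · rintro i ⟨hiW, hig⟩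
    rw [hM.gr i hiW, contract_ground]
    ext x
    constructor
    · rintro ⟨hx, hi⟩
      refine ⟨⟨hx, ?_⟩, hi⟩
      intro hc
      have hci : c x = i := hi
      exact hig (hci ▸ hc)
    · rintro ⟨⟨hx, -⟩, hi⟩
      exact ⟨hx, hi⟩

/-- Gluing in a window `P`. -/
lemma glue_psi (ih : Sol c (M ↾ (M.E \ c ⁻¹' P)) N (W \ P)) (hV : V ⊆ c ⁻¹' P)
    (hVind : (M ／ c ⁻¹' Pᶜ).Indep V)
    (hfull : ∀ i ∈ P, (N i).Indep (V ∩ c ⁻¹' {i}) ∧ FD (N i) (V ∩ c ⁻¹' {i})) :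
    Sol c M N W := by
  obtain ⟨R', J', hS⟩ := ih
  have hJ'E : J' ⊆ M.E \ c ⁻¹' P := hS.subset_ground
  have hR'W : R' ⊆ W \ P := hS.RW
  have e1 : ∀ i ∈ P, (J' ∪ V) ∩ c ⁻¹' {i} = V ∩ c ⁻¹' {i} := by
    intro i hi
    ext x
    constructor
    · rintro ⟨hx | hx, hci⟩
      · have hci' : c x = i := hci
        exact absurd (hci' ▸ hi : c x ∈ P) (hJ'E hx).2
      · exact ⟨hx, hci⟩
    · rintro ⟨hx, hci⟩
      exact ⟨Or.inr hx, hci⟩
  have e2 : ∀ i, i ∉ P → (J' ∪ V) ∩ c ⁻¹' {i} = J' ∩ c ⁻¹' {i} := by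
    intro i hi
    ext x
    constructor
    · rintro ⟨hx | hx, hci⟩
      · exact ⟨hx, hci⟩
      · have hci' : c x = i := hci
        have hni : c x ∉ P := by rw [hci']; exact hi
        exact absurd (hV hx) hni
    · rintro ⟨hx, hci⟩
      exact ⟨Or.inl hx, hci⟩
  have e3 : (J' ∪ V) ∩ c ⁻¹' R' = J' ∩ c ⁻¹' R' := by
    ext x
    constructor
    · rintro ⟨hx | hx, hci⟩
      · exact ⟨hx, hci⟩
      · exact absurd (hV hx) (hR'W hci).2
    · rintro ⟨hx, hci⟩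
      exact ⟨Or.inl hx, hci⟩
  refine ⟨R', J' ∪ V, subset_trans hR'W sdiff_subset, ?_, ?_, ?_, ?_⟩
  · intro i hi
    by_cases hiP : i ∈ P
    · rw [e1 i hiP]
      exact (hfull i hiP).1
    · rw [e2 i hiP]
      exact hS.ind i ⟨hi, hiP⟩
  · rw [e3]
    have := hS.fdR
    rw [restrict_ground_eq, restrict_restrict_eq _ inter_subset_left] at this
    have e4 : (M.E \ c ⁻¹' P) ∩ c ⁻¹' R' = M.E ∩ c ⁻¹' R' := by
      ext x
      constructor
      · rintro ⟨⟨hx, -⟩, h'⟩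
        exact ⟨hx, h'⟩
      · rintro ⟨hx, h'⟩
        exact ⟨⟨hx, (hR'W h').2⟩, h'⟩
    rwa [e4] at this
  · have h1 : (M ／ c ⁻¹' R').Indep (J' \ c ⁻¹' R') := by
      refine indep_of_restrict_contract hS.indS sdiff_subset ?_
      rintro x ⟨hx, hxE⟩
      exact ⟨hxE, (hR'W hx).2⟩
    have h2 := over_union h1 hVind (fun x hx => (hJ'E hx.1).2)
      (fun x hx => (hR'W hx).2)
    refine h2.subset ?_
    rintro x ⟨hx | hx, hxR⟩
    · exact Or.inr ⟨hx, hxR⟩
    · exact Or.inl hx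
  · rintro i ⟨hi, hiR⟩
    by_cases hiP : i ∈ P
    · rw [e1 i hiP]
      exact (hfull i hiP).2
    · rw [e2 i hiP]
      exact hS.fdS i ⟨⟨hi, hiP⟩, hiR⟩

/-- Gluing in a single colour on which `J₀` has finite defect in `M`. -/
lemma glue_phi (hg : g ∈ W)
    (ih : Sol c (M ／ c ⁻¹' {g}) N (W \ {g})) {J₀ : Set α} (hJ₀ : J₀ ⊆ c ⁻¹' {g})
    (hJ₀N : (N g).Indep J₀) (hFD : FD (M ↾ (M.E ∩ c ⁻¹' {g})) J₀) : Sol c M N W := by
  obtain ⟨R', J', hS⟩ := ih
  have hJ'E : J' ⊆ M.E \ c ⁻¹' {g} := by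
    have := hS.subset_ground
    rwa [contract_ground] at this
  have hR'W : R' ⊆ W \ {g} := hS.RW
  have e1 : (J' ∪ J₀) ∩ c ⁻¹' {g} = J₀ := by
    ext x
    constructor
    · rintro ⟨hx | hx, hci⟩
      · exact absurd hci (hJ'E hx).2
      · exact hx
    · intro hx
      exact ⟨Or.inr hx, hJ₀ hx⟩
  have e2 : ∀ i, i ≠ g → (J' ∪ J₀) ∩ c ⁻¹' {i} = J' ∩ c ⁻¹' {i} := by
    intro i hi
    ext x
    constructor
    · rintro ⟨hx | hx, hci⟩
      · exact ⟨hx, hci⟩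
      · have h1 : c x = i := hci
        have h2 : c x = g := hJ₀ hx
        exact absurd (h1.symm.trans h2) hi
    · rintro ⟨hx, hci⟩
      exact ⟨Or.inl hx, hci⟩
  refine ⟨insert g R', J' ∪ J₀, insert_subset hg (subset_trans hR'W sdiff_subset), ?_, ?_, ?_, ?_⟩
  · intro i hi
    by_cases hig : i = g
    · subst hig
      rw [e1]
      exact hJ₀N
    · rw [e2 i hig]
      exact hS.ind i ⟨hi, hig⟩
  · have hfd2 := hS.fdR
    rw [contract_ground] at hfd2
    have hA₁ : M.E ∩ c ⁻¹' {g} ⊆ M.E := inter_subset_left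
    have hcon : M ／ (M.E ∩ c ⁻¹' {g}) = M ／ c ⁻¹' {g} := by
      rw [inter_comm, contract_inter_ground_eq]
    have hA₂ : (M.E \ c ⁻¹' {g}) ∩ c ⁻¹' R' ⊆ (M ／ (M.E ∩ c ⁻¹' {g})).E := by
      rw [hcon, contract_ground]
      exact inter_subset_left
    rw [← hcon] at hfd2
    have := FD.restrict_union hA₁ hA₂ hFD hfd2
    convert this using 2
    · ext x
      constructor
      · rintro ⟨hx, hc⟩
        rcases hc with hc | hc
        · exact Or.inl ⟨hx, hc⟩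
        · refine Or.inr ⟨⟨hx, ?_⟩, hc⟩
          exact (hR'W hc).2
      · rintro (⟨hx, hc⟩ | ⟨⟨hx, -⟩, hc⟩)
        · exact ⟨hx, Or.inl hc⟩
        · exact ⟨hx, Or.inr hc⟩
    · ext x
      constructor
      · rintro ⟨hx | hx, hc⟩
        · rcases hc with hc | hc
          · exact absurd hc (hJ'E hx).2
          · exact Or.inr ⟨hx, hc⟩
        · exact Or.inl hx
      · rintro (hx | ⟨hx, hc⟩)
        · exact ⟨Or.inr hx, Or.inl (hJ₀ hx)⟩
        · exact ⟨Or.inl hx, Or.inr hc⟩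
  · have h1 := hS.indS
    rw [contract_contract] at h1
    have e3 : c ⁻¹' {g} ∪ c ⁻¹' R' = c ⁻¹' (insert g R') := by
      ext x
      simp
    rw [e3] at h1
    refine h1.subset ?_
    rintro x ⟨hx | hx, hc⟩
    · exact ⟨hx, fun h' => hc (Or.inr h')⟩
    · exact absurd (Or.inl (hJ₀ hx)) hc
  · rintro i ⟨hi, hiR⟩
    have hig : i ≠ g := fun h' => hiR (Or.inl h')
    rw [e2 i hig]
    exact hS.fdS i ⟨⟨hi, hig⟩, fun h' => hiR (Or.inr h')⟩

/-- The top dichotomy for a colour `g`: either a solution, or a top `G`. -/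
lemma top_dichotomy (hM : Inst c M N W) (hg : g ∈ W)
    (ih : Sol c (M ／ c ⁻¹' {g}) N (W \ {g})) :
    Sol c M N W ∨ ∃ G, M.Indep G ∧ G ⊆ c ⁻¹' {g} ∧ (N g).Indep G ∧ FD (N g) G := by
  obtain ⟨B, hB⟩ := M.exists_isBasis (M.E ∩ c ⁻¹' {g}) inter_subset_left
  have hBE : B ⊆ (N g).E := by
    rw [hM.gr g hg]
    exact hB.subset
  obtain ⟨F, hF, hFE, h | h⟩ := hM.nu g hg B hBE
  · left
    refine glue_phi hg ih (subset_trans sdiff_subset (subset_trans hB.subset inter_subset_right))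
      h ⟨B, ?_, sdiff_subset, hF.subset ?_⟩
    · rwa [isBase_restrict_iff inter_subset_left]
    · rintro x ⟨hxB, hx⟩
      by_contra hxF
      exact hx ⟨hxB, hxF⟩
  · right
    obtain ⟨G, hG⟩ := (N g).exists_isBasis B hBE
    refine ⟨G, hB.indep.subset hG.subset, subset_trans hG.subset
      (subset_trans hB.subset inter_subset_right), hG.indep, FD.of_spanning hG.indep ?_ hF⟩
    have hsub : G ∪ F ⊆ (N g).E := union_subset hG.indep.subset_ground hFE
    rw [spanning_iff_closure_eq hsub, closure_union_congr_left hG.closure_eq_closure]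
    exact h.closure_eq

end Vale.Agent.Lib.P068
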