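import Vale.Agent.Lib.P068.Colored

/-!
# Reduction to the case where every colour has finite rank over the others
-/

open Set Matroid

namespace Vale.Agent.Lib.P068

variable {α ι : Type*} {c : α → ι} {M : Matroid α} {N : ι → Matroid α} {W P R Z : Set ι} {g : ι}
  {J V G : Set α}

lemma indep_iUnion {T : Set ι} {D : ι → Set α}
    (hD : ∀ i ∈ T, (M ／ c ⁻¹' {i}ᶜ).Indep (D i)) (hDc : ∀ i ∈ T, D i ⊆ c ⁻¹' {i}) :
    (M ／ c ⁻¹' Tᶜ).Indep (⋃ i ∈ T, D i) := by
  rw [indep_iff_forall_notMem_closure_sdiff']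
  refine ⟨?_, ?_⟩
  · intro x hx
    simp only [mem_iUnion] at hx
    obtain ⟨i, hi, hx⟩ := hx
    rw [contract_ground]
    have hxE := (hD i hi).subset_ground hx
    rw [contract_ground] at hxE
    refine ⟨hxE.1, ?_⟩
    have hci : c x = i := hDc i hi hx
    intro hcon
    apply hcon
    rw [hci]
    exact hi
  · intro e he hcl
    simp only [mem_iUnion] at he
    obtain ⟨i, hi, he⟩ := he
    rw [contract_closure_eq] at hcl
    have h2 := (hD i hi).notMem_closure_sdiff_of_mem he
    apply h2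
    rw [contract_closure_eq]
    refine ⟨M.closure_subset_closure ?_ hcl.1, ?_⟩
    · rintro x (⟨hx, hxe⟩ | hx)
      · simp only [mem_iUnion] at hx
        obtain ⟨j, hj, hx⟩ := hx
        have hcj : c x = j := hDc j hj hx
        by_cases hji : j = i
        · subst hji
          exact Or.inl ⟨hx, hxe⟩
        · right
          intro hc
          apply hji
          have : c x = i := hc
          rw [← hcj, this]
      · right
        intro hc
        apply hx
        have : c x = i := hc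
        change c x ∈ T
        rw [this]
        exact hi
    · intro hc
      apply hc
      exact hDc i hi he

/-- The per-colour dichotomy. -/
lemma reduce_dag (ih : ∀ P : Set ι, P ⊆ W → P.Nonempty → Sol c (M ↾ (M.E \ c ⁻¹' P)) N (W \ P))
    (hM : Inst c M N W) :
    Sol c M N W ∨ ∃ D : ι → Set α, (∀ i ∈ W, D i ⊆ c ⁻¹' {i}) ∧ (∀ i ∈ W, (N i).Indep (D i)) ∧
      (∀ i ∈ W, FD (M ／ c ⁻¹' {i}ᶜ) (D i)) := by
  by_cases hs : Sol c M N W
  · exact Or.inl hs
  right
  have key : ∀ i ∈ W, ∃ D : Set α, D ⊆ c ⁻¹' {i} ∧ (N i).Indep D ∧ FD (M ／ c ⁻¹' {i}ᶜ) D := by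
    intro i hi
    obtain ⟨B, hB⟩ := (M ／ c ⁻¹' {i}ᶜ).exists_isBase
    have hBsub : B ⊆ M.E ∩ c ⁻¹' {i} := by
      intro x hx
      have := hB.subset_ground hx
      rw [contract_ground] at this
      refine ⟨this.1, ?_⟩
      by_contra hc
      exact this.2 hc
    have hBE : B ⊆ (N i).E := by
      rw [hM.gr i hi]
      exact hBsub
    have hBi : B ⊆ c ⁻¹' {i} := subset_trans hBsub inter_subset_right
    obtain ⟨F, hF, hFE, h | h⟩ := hM.nu i hi B hBE
    · refine ⟨B \ F, subset_trans sdiff_subset hBi, h, B, hB, sdiff_subset, hF.subset ?_⟩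
      rintro x ⟨hxB, hx⟩
      by_contra hxF
      exact hx ⟨hxB, hxF⟩
    · exfalso
      apply hs
      obtain ⟨X, hX⟩ := (N i).exists_isBasis B hBE
      have hXi : X ⊆ c ⁻¹' {i} := subset_trans hX.subset hBi
      have hXe : X ∩ c ⁻¹' {i} = X := inter_eq_self_of_subset_left hXi
      refine glue_psi (P := {i}) (V := X) (ih {i} (singleton_subset_iff.2 hi)
        (singleton_nonempty i)) hXi (hB.indep.subset hX.subset) ?_
      intro j hj
      have hji : j = i := hj
      subst hji
      rw [hXe]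
      refine ⟨hX.indep, FD.of_spanning hX.indep ?_ hF⟩
      have hsub : X ∪ F ⊆ (N j).E := union_subset hX.indep.subset_ground hFE
      rw [spanning_iff_closure_eq hsub, closure_union_congr_left hX.closure_eq_closure]
      exact h.closure_eq
  choose! D hD1 hD2 hD3 using key
  exact ⟨D, hD1, hD2, hD3⟩

section lift

variable {D : ι → Set α}

lemma FD.indep' {K : Matroid α} {X : Set α} (h : FD K X) : K.Indep X := by
  obtain ⟨B, hB, hXB, -⟩ := h
  exact hB.indep.subset hXB

/-- The reduced instance. -/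
lemma Inst.contract_all (hM : Inst c M N W)
    (hD1 : ∀ i ∈ W, D i ⊆ c ⁻¹' {i}) (hD2 : ∀ i ∈ W, (N i).Indep (D i)) :
    Inst c (M ／ ⋃ i ∈ W, D i) (fun i => N i ／ D i) W := by
  refine ⟨?_, ?_, fun i hi => (hM.nu i hi).contract (hD2 i hi)⟩
  · intro x hx
    rw [contract_ground] at hx
    exact hM.sub hx.1
  · intro i hi
    rw [contract_ground, contract_ground, hM.gr i hi]
    ext x
    constructor
    · rintro ⟨⟨hx, hci⟩, hxD⟩
      refine ⟨⟨hx, ?_⟩, hci⟩
      intro hc
      simp only [mem_iUnion] at hc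
      obtain ⟨j, hj, hxj⟩ := hc
      have h1 : c x = j := hD1 j hj hxj
      have h2 : c x = i := hci
      have hji : j = i := h1.symm.trans h2
      subst hji
      exact hxD hxj
    · rintro ⟨⟨hx, hxD⟩, hci⟩
      refine ⟨⟨hx, hci⟩, fun hc => hxD ?_⟩
      simp only [mem_iUnion]
      exact ⟨i, hi, hc⟩

lemma dag_of_contract_all (hD1 : ∀ i ∈ W, D i ⊆ c ⁻¹' {i})
    (hD3 : ∀ i ∈ W, FD (M ／ c ⁻¹' {i}ᶜ) (D i)) {g : ι} (hg : g ∈ W) :
    ((M ／ ⋃ i ∈ W, D i) ／ c ⁻¹' {g}ᶜ).RankFinite := by
  have h := (hD3 g hg).rankFinite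
  have e : (M ／ ⋃ i ∈ W, D i) ／ c ⁻¹' {g}ᶜ = M ／ c ⁻¹' {g}ᶜ ／ D g := by
    rw [contract_contract, contract_contract]
    congr 1
    ext x
    constructor
    · rintro (hx | hx)
      · simp only [mem_iUnion] at hx
        obtain ⟨j, hj, hxj⟩ := hx
        by_cases hjg : j = g
        · subst hjg
          exact Or.inr hxj
        · left
          intro hc
          apply hjg
          have h1 : c x = j := hD1 j hj hxj
          have h2 : c x = g := hc
          exact h1.symm.trans h2
      · exact Or.inl hx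
    · rintro (hx | hx)
      · exact Or.inr hx
      · left
        simp only [mem_iUnion]
        exact ⟨g, hg, hx⟩
  rw [e]
  exact h

/-- Lifting a solution of the reduced instance. -/
lemma lift_sol (hD1 : ∀ i ∈ W, D i ⊆ c ⁻¹' {i}) (hD2 : ∀ i ∈ W, (N i).Indep (D i))
    (hD3 : ∀ i ∈ W, FD (M ／ c ⁻¹' {i}ᶜ) (D i))
    (h : Sol c (M ／ ⋃ i ∈ W, D i) (fun i => N i ／ D i) W) : Sol c M N W := by
  obtain ⟨R, J', hS⟩ := h
  set D₀ := ⋃ i ∈ W, D i with hD₀
  have hD₀M : M.Indep D₀ := (indep_iUnion (T := W) (fun i hi => (hD3 i hi).indep') hD1).of_contract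
  have hJ'E : J' ⊆ M.E \ D₀ := by
    have := hS.subset_ground
    rwa [contract_ground] at this
  have hD₀col : ∀ {x : α}, x ∈ D₀ → x ∈ D (c x) ∧ c x ∈ W := by
    intro x hx
    simp only [hD₀, mem_iUnion] at hx
    obtain ⟨j, hj, hxj⟩ := hx
    have h1 : c x = j := hD1 j hj hxj
    rw [h1]
    exact ⟨hxj, hj⟩
  have hDmem : ∀ {i x}, i ∈ W → x ∈ D i → x ∈ D₀ := by
    intro i x hi hx
    simp only [hD₀, mem_iUnion]
    exact ⟨i, hi, hx⟩
  -- the part of `D₀` outside `R`
  set DS := ⋃ i ∈ W \ R, D i with hDS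
  have hDSind : (M ／ c ⁻¹' R).Indep DS := by
    refine over_mono (indep_iUnion (T := W \ R) (fun i hi => (hD3 i hi.1).indep')
      (fun i hi => hD1 i hi.1)) ?_
    intro x hx hc
    exact hc.2 hx
  set DR := D₀ ∩ c ⁻¹' R with hDR
  have e0 : ∀ i ∈ W, (J' ∪ D₀) ∩ c ⁻¹' {i} = (J' ∩ c ⁻¹' {i}) ∪ D i := by
    intro i hi
    ext x
    constructor
    · rintro ⟨hx | hx, hci⟩
      · exact Or.inl ⟨hx, hci⟩
      · right
        have hci' : c x = i := hci
        have := (hD₀col hx).1
        rwa [hci'] at this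
    · rintro (⟨hx, hci⟩ | hx)
      · exact ⟨Or.inl hx, hci⟩
      · exact ⟨Or.inr (hDmem hi hx), hD1 i hi hx⟩
  have hRW : R ⊆ W := hS.RW
  refine ⟨R, J' ∪ D₀, hRW, ?_, ?_, ?_, ?_⟩
  · intro i hi
    rw [e0 i hi]
    have := hS.ind i hi
    change (N i ／ D i).Indep _ at this
    rw [(hD2 i hi).contract_indep_iff] at this
    exact this.2
  · -- the `R` part
    have hA : M.E ∩ c ⁻¹' R ⊆ M.E := inter_subset_left
    have hDRA : DR ⊆ M.E ∩ c ⁻¹' R := fun x hx => ⟨hD₀M.subset_ground hx.1, hx.2⟩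
    have hDRind : (M ↾ (M.E ∩ c ⁻¹' R)).Indep DR := by
      rw [restrict_indep_iff]
      exact ⟨hD₀M.subset inter_subset_left, hDRA⟩
    have hDRM : M.Indep DR := hD₀M.subset inter_subset_left
    have e1 : (M ／ D₀) ↾ ((M ／ D₀).E ∩ c ⁻¹' R) = (M ↾ (M.E ∩ c ⁻¹' R)) ／ DR := by
      refine ext_indep ?_ ?_
      · rw [restrict_ground_eq, contract_ground, contract_ground, restrict_ground_eq]
        ext x
        constructor
        · rintro ⟨⟨hx, hxD⟩, hxR⟩
          exact ⟨⟨hx, hxR⟩, fun hc => hxD hc.1⟩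
        · rintro ⟨⟨hx, hxR⟩, hxD⟩
          exact ⟨⟨hx, fun hc => hxD ⟨hc, hxR⟩⟩, hxR⟩
      · intro I hI
        rw [restrict_ground_eq, contract_ground] at hI
        rw [restrict_indep_iff, hD₀M.contract_indep_iff, hDRind.contract_indep_iff,
          restrict_indep_iff]
        constructor
        · rintro ⟨⟨hd, hu⟩, -⟩
          refine ⟨hd.mono_right inter_subset_left, hu.subset ?_, ?_⟩
          · exact union_subset_union_right _ inter_subset_left
          · rintro x (hx | hx)
            · exact ⟨(hI hx).1.1, (hI hx).2⟩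
            · exact hDRA hx
        · rintro ⟨hd, hu, hsub⟩
          have h1 := indep_union_of_contract hDSind hu (subset_trans hsub inter_subset_right)
          refine ⟨⟨?_, h1.subset ?_⟩, ?_⟩
          · rw [disjoint_left]
            intro x hx
            exact (hI hx).1.2
          · rintro x (hx | hx)
            · exact Or.inr (Or.inl hx)
            · by_cases hxR : c x ∈ R
              · exact Or.inr (Or.inr ⟨hx, hxR⟩)
              · left
                obtain ⟨h3, h4⟩ := hD₀col hx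
                simp only [hDS, mem_iUnion]
                exact ⟨c x, ⟨h4, hxR⟩, h3⟩
          · rw [contract_ground]
            exact hI
    have h2 := hS.fdR
    rw [e1] at h2
    have h3 := h2.of_contract hDRind
    convert h3 using 1
    ext x
    constructor
    · rintro ⟨hx | hx, hc⟩
      · exact Or.inl ⟨hx, hc⟩
      · exact Or.inr ⟨hx, hc⟩
    · rintro (⟨hx, hc⟩ | ⟨hx, hc⟩)
      · exact ⟨Or.inl hx, hc⟩
      · exact ⟨Or.inr hx, hc⟩
  · -- the independent part
    have h1 := hS.indS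
    have e2 : (M ／ D₀) ／ c ⁻¹' R = (M ／ c ⁻¹' R) ／ DS := by
      rw [contract_contract, contract_contract]
      congr 1
      ext x
      constructor
      · rintro (hx | hx)
        · by_cases hxR : c x ∈ R
          · exact Or.inl hxR
          · right
            obtain ⟨h3, h4⟩ := hD₀col hx
            simp only [hDS, mem_iUnion]
            exact ⟨c x, ⟨h4, hxR⟩, h3⟩
        · exact Or.inl hx
      · rintro (hx | hx)
        · exact Or.inr hx
        · left
          simp only [hDS, mem_iUnion] at hx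
          obtain ⟨j, hj, hxj⟩ := hx
          exact hDmem hj.1 hxj
    rw [e2, hDSind.contract_indep_iff] at h1
    refine h1.2.subset ?_
    rintro x ⟨hx | hx, hxR⟩
    · exact Or.inl ⟨hx, hxR⟩
    · right
      obtain ⟨h3, h4⟩ := hD₀col hx
      simp only [hDS, mem_iUnion]
      exact ⟨c x, ⟨h4, hxR⟩, h3⟩
  · rintro i ⟨hi, hiR⟩
    rw [e0 i hi]
    exact (hS.fdS i ⟨hi, hiR⟩).of_contract (hD2 i hi)

end lift

end Vale.Agent.Lib.P068
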