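import Mathlib

/-!
# Statement definitions for P068: the infinite matroid intersection conjecture
-/

open Set

namespace Vale.Agent.Lib.P068

variable {α : Type*}

/-- `(M, N)` satisfies intersection: there are disjoint sets `JM`, `JN` whose union is independent
in both matroids, such that `cl_M JM ∪ cl_N JN` is the whole ground set.  (Used for `M`, `N` with
the same ground set.) -/
def SatisfiesIntersection (M N : Matroid α) : Prop :=
  ∃ JM JN : Set α, Disjoint JM JN ∧ M.Indep (JM ∪ JN) ∧ N.Indep (JM ∪ JN) ∧
    M.closure JM ∪ N.closure JN = M.E

/-- A matroid is *nearly uniform* if every subset of the ground set becomes independent after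
removing finitely many elements, or becomes spanning after adding finitely many elements. -/
def NearlyUniform (N : Matroid α) : Prop :=
  ∀ X ⊆ N.E, ∃ F : Set α, F.Finite ∧ F ⊆ N.E ∧ (N.Indep (X \ F) ∨ N.Spanning (X ∪ F))

end Vale.Agent.Lib.P068
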