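import Vale.Agent.Lib.P068.Window

/-!
# From coloured solutions to intersection with a finite direct sum
-/

open Set Matroid

namespace Vale.Agent.Lib.P068

variable {α ι : Type*}

/-- **Theorem.** An arbitrary matroid `M` and a direct sum of finitely many nearly uniform matroids
on the same ground set satisfy intersection. -/
theorem sat_disjointSigma [Finite ι] (M : Matroid α) (N : ι → Matroid α)
    (h : Pairwise (Function.onFun Disjoint fun i => (N i).E)) (hE : M.E = ⋃ i, (N i).E)
    (hN : ∀ i, NearlyUniform (N i)) : SatisfiesIntersection M (Matroid.disjointSigma N h) := by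
  classical
  by_cases hι : Nonempty ι
  swap
  · -- no summands: the ground set is empty
    have hempty : M.E = ∅ := by
      rw [hE]
      ext x
      simp only [mem_iUnion, mem_empty_iff_false, iff_false, not_exists]
      intro i
      exact absurd ⟨i⟩ hι
    refine ⟨∅, ∅, empty_disjoint _, by simp, by simp, ?_⟩
    apply subset_antisymm
    · refine union_subset (M.closure_subset_ground _) ?_
      rw [hempty]
      intro x hx
      have := (Matroid.disjointSigma N h).closure_subset_ground _ hx
      rw [disjointSigma_ground_eq, ← hE, hempty] at this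
      exact this
    · rw [hempty]
      exact empty_subset _
  obtain ⟨i₀⟩ := hι
  -- the colouring
  let c : α → ι := fun x => if hx : ∃ i, x ∈ (N i).E then hx.choose else i₀
  have hc : ∀ {x i}, x ∈ (N i).E → c x = i := by
    intro x i hx
    have hex : ∃ i, x ∈ (N i).E := ⟨i, hx⟩
    have hdef : c x = hex.choose := dif_pos hex
    rw [hdef]
    by_contra hne
    exact disjoint_left.1 (h hne) hex.choose_spec hx
  have hsubE : ∀ i, (N i).E ⊆ M.E := by
    intro i
    rw [hE]
    exact subset_iUnion (fun i => (N i).E) i
  have hEx : ∀ {x}, x ∈ M.E → x ∈ (N (c x)).E := by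
    intro x hx
    rw [hE] at hx
    obtain ⟨i, hi⟩ := mem_iUnion.1 hx
    rw [hc hi]
    exact hi
  have hgr : ∀ i, (N i).E = M.E ∩ c ⁻¹' {i} := by
    intro i
    ext x
    constructor
    · intro hx
      exact ⟨hsubE i hx, hc hx⟩
    · rintro ⟨hx, hxi⟩
      have h1 : c x = i := hxi
      rw [← h1]
      exact hEx hx
  have hM : Inst c M N univ :=
    ⟨fun _ _ => mem_univ _, fun i _ => hgr i, fun i _ => hN i⟩
  obtain ⟨R, J, hS⟩ := sol_of_inst (c := c) _ univ finite_univ le_rfl M N hM
  set L := Matroid.disjointSigma N h with hL
  have hLE : L.E = M.E := by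
    rw [hL, disjointSigma_ground_eq, hE]
  set A := M.E ∩ c ⁻¹' R with hA
  set B := M.E \ c ⁻¹' R with hB
  have hAE : A ⊆ L.E := hLE ▸ inter_subset_left
  have hBE : B ⊆ L.E := hLE ▸ sdiff_subset
  have hAB : Disjoint (L ↾ B).E (L ↾ A).E := by
    rw [restrict_ground_eq, restrict_ground_eq, disjoint_left]
    rintro x ⟨-, hx⟩ ⟨-, hx'⟩
    exact hx hx'
  have hABE : M.E = (L ↾ B).E ∪ (L ↾ A).E := by
    rw [restrict_ground_eq, restrict_ground_eq]
    ext x
    constructor
    · intro hx
      by_cases hxR : c x ∈ R
      · exact Or.inr ⟨hx, hxR⟩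
      · exact Or.inl ⟨hx, hxR⟩
    · rintro (hx | hx)
      · exact hx.1
      · exact hx.1
  have hLsum : L = (L ↾ B).disjointSum (L ↾ A) hAB := by
    refine ext_indep ?_ ?_
    · rw [disjointSum_ground_eq, ← hABE, hLE]
    · intro I hI
      rw [disjointSum_indep_iff, restrict_indep_iff, restrict_indep_iff, restrict_ground_eq,
        restrict_ground_eq]
      constructor
      · intro hIL
        refine ⟨⟨hIL.subset inter_subset_left, inter_subset_right⟩,
          ⟨hIL.subset inter_subset_left, inter_subset_right⟩, ?_⟩
        have : I ⊆ M.E := hLE ▸ hI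
        refine subset_trans this ?_
        have h2 := hABE
        rw [restrict_ground_eq, restrict_ground_eq] at h2
        exact h2.subset
      · rintro ⟨⟨h1, -⟩, ⟨h2, -⟩, -⟩
        rw [hL, disjointSigma_indep_iff] at h1 h2 ⊢
        refine ⟨?_, ?_⟩
        · intro i
          by_cases hiR : i ∈ R
          · refine (h2.1 i).subset ?_
            rintro x ⟨hxI, hxi⟩
            refine ⟨⟨hxI, hsubE i hxi, ?_⟩, hxi⟩
            change c x ∈ R
            rw [hc hxi]
            exact hiR
          · refine (h1.1 i).subset ?_
            rintro x ⟨hxI, hxi⟩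
            refine ⟨⟨hxI, hsubE i hxi, ?_⟩, hxi⟩
            change c x ∉ R
            rw [hc hxi]
            exact hiR
        · have : I ⊆ M.E := hLE ▸ hI
          rw [← hE]
          exact this
  -- independence of pieces of `J` in `L`
  have hJE : J ⊆ M.E := hS.subset_ground
  have hJL : L.Indep J := by
    rw [hL, disjointSigma_indep_iff]
    refine ⟨?_, by rw [← hE]; exact hJE⟩
    intro i
    refine (hS.ind i (mem_univ i)).subset ?_
    rintro x ⟨hx, hxi⟩
    exact ⟨hx, hc hxi⟩
  have hkey : SatisfiesIntersection (M ／ (L ↾ A).E) (L ↾ B) := by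
    have hcon : M ／ (L ↾ A).E = M ／ c ⁻¹' R := by
      rw [restrict_ground_eq, hA, inter_comm, contract_inter_ground_eq]
    rw [hcon]
    refine sat_of_FD (J := J \ c ⁻¹' R) ?_ hS.indS ?_ (Or.inr ?_)
    · rw [contract_ground, restrict_ground_eq]
    · rw [restrict_indep_iff]
      exact ⟨hJL.subset sdiff_subset, fun x hx => ⟨hJE hx.1, hx.2⟩⟩
    · -- finite defect on the `N` side
      have hfd : ∀ i, i ∉ R → ∃ D, (N i).IsBase D ∧ J ∩ c ⁻¹' {i} ⊆ D ∧ (D \ (J ∩ c ⁻¹' {i})).Finite :=
        fun i hi => hS.fdS i ⟨mem_univ i, hi⟩
      choose! D hD1 hD2 hD3 using hfd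
      refine ⟨⋃ i, ⋃ (_ : i ∉ R), D i, ?_, ?_, ?_⟩
      · rw [isBase_restrict_iff hBE, hL, disjointSigma_isBasis_iff]
        refine ⟨?_, ?_, ?_⟩
        · intro i
          by_cases hiR : i ∈ R
          · have e1 : (⋃ i, ⋃ (_ : i ∉ R), D i) ∩ (N i).E = ∅ := by
              ext x
              simp only [mem_inter_iff, mem_iUnion, mem_empty_iff_false, iff_false, not_and]
              rintro ⟨j, hj, hxj⟩ hxi
              have h1 : c x = j := hc ((hD1 j hj).subset_ground hxj)
              have h2 : c x = i := hc hxi
              have : j = i := h1.symm.trans h2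
              subst this
              exact hj hiR
            have e2 : B ∩ (N i).E = ∅ := by
              ext x
              simp only [mem_inter_iff, mem_empty_iff_false, iff_false, not_and]
              rintro ⟨-, hxR⟩ hxi
              apply hxR
              change c x ∈ R
              rw [hc hxi]
              exact hiR
            rw [e1, e2]
            exact (N i).empty_indep.isBasis_self
          · have e1 : (⋃ i, ⋃ (_ : i ∉ R), D i) ∩ (N i).E = D i := by
              ext x
              simp only [mem_inter_iff, mem_iUnion]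
              constructor
              · rintro ⟨⟨j, hj, hxj⟩, hxi⟩
                have h1 : c x = j := hc ((hD1 j hj).subset_ground hxj)
                have h2 : c x = i := hc hxi
                have : j = i := h1.symm.trans h2
                subst this
                exact hxj
              · intro hx
                exact ⟨⟨i, hiR, hx⟩, (hD1 i hiR).subset_ground hx⟩
            have e2 : B ∩ (N i).E = (N i).E := by
              refine inter_eq_self_of_subset_right ?_
              intro x hxi
              refine ⟨hsubE i hxi, ?_⟩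
              change c x ∉ R
              rw [hc hxi]
              exact hiR
            rw [e1, e2]
            exact (hD1 i hiR).isBasis_ground
        · intro x hx
          simp only [mem_iUnion] at hx
          obtain ⟨j, hj, hxj⟩ := hx
          have hxE := (hD1 j hj).subset_ground hxj
          refine ⟨hsubE j hxE, ?_⟩
          change c x ∉ R
          rw [hc hxE]
          exact hj
        · rw [← hE]
          exact sdiff_subset
      · rintro x ⟨hxJ, hxR⟩
        simp only [mem_iUnion]
        have hxR' : c x ∉ R := hxR
        exact ⟨c x, hxR', hD2 (c x) hxR' ⟨hxJ, rfl⟩⟩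
      · have hfin : (⋃ i, ⋃ (_ : i ∉ R), (D i \ (J ∩ c ⁻¹' {i}))).Finite := by
          refine finite_iUnion (fun i => ?_)
          by_cases hi : i ∈ R
          · simp [hi]
          · simpa [hi] using hD3 i hi
        refine hfin.subset ?_
        rintro x ⟨hx, hx'⟩
        simp only [mem_iUnion] at hx ⊢
        obtain ⟨j, hj, hxj⟩ := hx
        refine ⟨j, hj, hxj, ?_⟩
        rintro ⟨hxJ, hxc⟩
        apply hx'
        refine ⟨hxJ, ?_⟩
        have h1 : c x = j := hxc
        change c x ∉ R
        rw [h1]
        exact hj
  have hfdR : FD (M ↾ (L ↾ A).E) (J ∩ c ⁻¹' R) := hS.fdR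
  have hfinal := sat_peel hAB hABE hkey (J₂ := J ∩ c ⁻¹' R) hfdR.indep'
    (by
      rw [restrict_indep_iff]
      exact ⟨hJL.subset inter_subset_left, fun x hx => ⟨hJE hx.1, hx.2⟩⟩) hfdR
  rw [hLsum]
  exact hfinal

end Vale.Agent.Lib.P068
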