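import Vale.Agent.Lib.P068.Augment

/-!
# Composition and direct sums of two nearly uniform matroids
-/

open Set Matroid

namespace Vale.Agent.Lib.P068

variable {α : Type*} {M N K L N₁ N₂ : Matroid α} {J I X Y B F : Set α}

/-- `J` extends to a base with finitely many more elements. -/
def FD (K : Matroid α) (J : Set α) : Prop := ∃ D, K.IsBase D ∧ J ⊆ D ∧ (D \ J).Finite

lemma FD.rankFinite (h : FD K J) : (K ／ J).RankFinite := by
  obtain ⟨D, hD, hJD, hfin⟩ := h
  have hJ : K.Indep J := hD.indep.subset hJD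
  have hbase : (K ／ J).IsBase (D \ J) := by
    rw [hJ.contract_isBase_iff, sdiff_union_of_subset hJD]
    exact ⟨hD, disjoint_sdiff_left⟩
  exact hbase.rankFinite_of_finite hfin

lemma FD.of_spanning (hJ : K.Indep J) (hS : K.Spanning (J ∪ F)) (hF : F.Finite) : FD K J := by
  obtain ⟨D, hD, hJD, hDS⟩ := hJ.exists_isBase_subset_spanning hS subset_union_left
  refine ⟨D, hD, hJD, hF.subset ?_⟩
  rintro x ⟨hxD, hxJ⟩
  rcases hDS hxD with h | h
  · exact absurd h hxJ
  · exact h

lemma sat_of_FD (hE : M.E = N.E) (hJM : M.Indep J) (hJN : N.Indep J) (h : FD M J ∨ FD N J) :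
    SatisfiesIntersection M N := by
  rcases h with h | h
  · exact sat_of_rankFinite M N hE hJM hJN h.rankFinite
  · exact sat_of_rankFinite' hE hJM hJN h.rankFinite

/-- The dichotomy for a nearly uniform matroid against an arbitrary matroid on the same set. -/
lemma NearlyUniform.types (hL : NearlyUniform L) (hE : K.E = L.E) :
    ∃ J, K.Indep J ∧ L.Indep J ∧ (FD K J ∨ FD L J) := by
  obtain ⟨B, hB⟩ := K.exists_isBase
  have hBE : B ⊆ L.E := hE ▸ hB.subset_ground
  obtain ⟨F, hF, hFE, h | h⟩ := hL B hBE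
  · refine ⟨B \ F, hB.indep.subset sdiff_subset, h, Or.inl ⟨B, hB, sdiff_subset, hF.subset ?_⟩⟩
    rintro x ⟨hxB, hx⟩
    by_contra hxF
    exact hx ⟨hxB, hxF⟩
  · obtain ⟨I, hI⟩ := L.exists_isBasis B hBE
    refine ⟨I, hB.indep.subset hI.subset, hI.indep, Or.inr (FD.of_spanning hI.indep ?_ hF)⟩
    have hsub : I ∪ F ⊆ L.E := union_subset hI.indep.subset_ground hFE
    rw [spanning_iff_closure_eq hsub, closure_union_congr_left hI.closure_eq_closure]
    exact h.closure_eq

/-- Composition: peeling off a set spanned on the `N`-side. -/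
lemma compose (hE : M.E = N.E) (hIN : N.Indep I) (hIB : I ⊆ B)
    (hBcl : B ⊆ N.closure I) (hIM : (M ／ (M.E \ B)).Indep I)
    (hS : SatisfiesIntersection (M ↾ (M.E \ B)) (N ／ B)) : SatisfiesIntersection M N := by
  obtain ⟨JM, JN, hd, h1, h2, h3⟩ := hS
  have hI : N.IsBasis I B := hIN.isBasis_of_subset_of_subset_closure hIB hBcl
  rw [restrict_indep_iff] at h1
  rw [hI.contract_indep_iff] at h2
  obtain ⟨K', hK', hJK⟩ := h1.1.subset_isBasis'_of_subset h1.2
  have h4 := hK'.contract_indep_iff.1 hIM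
  have hJMR : JM ⊆ M.E \ B := subset_trans subset_union_left h1.2
  have hdisjB : Disjoint JM I := by
    rw [disjoint_left]
    intro a ha hb
    exact (hJMR ha).2 (hIB hb)
  refine ⟨JM, JN ∪ I, ?_, ?_, ?_, ?_⟩
  · rw [disjoint_union_right]
    exact ⟨hd, hdisjB⟩
  · refine h4.1.subset ?_
    rintro a (ha | ha | ha)
    · exact Or.inr (hJK (Or.inl ha))
    · exact Or.inr (hJK (Or.inr ha))
    · exact Or.inl ha
  · refine h2.1.subset ?_
    rintro a (ha | ha | ha)
    · exact Or.inl (Or.inl ha)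
    · exact Or.inl (Or.inr ha)
    · exact Or.inr ha
  · apply subset_antisymm
    · refine union_subset (M.closure_subset_ground _) ?_
      rw [hE]; exact N.closure_subset_ground _
    intro e he
    by_cases heB : e ∈ B
    · right
      exact N.closure_subset_closure subset_union_right (hBcl heB)
    have heR : e ∈ (M ↾ (M.E \ B)).E := ⟨he, heB⟩
    rw [← h3] at heR
    rcases heR with h | h
    · left
      rw [restrict_closure_eq M hJMR sdiff_subset] at h
      exact h.1
    · right
      rw [contract_closure_eq] at h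
      rw [closure_union_congr_right hI.closure_eq_closure]
      exact h.1

/-- Independence over a contraction set. -/
lemma indep_union_of_contract (h₁ : (M ／ X).Indep I) (hJ : M.Indep J) (hJX : J ⊆ X) :
    M.Indep (I ∪ J) := by
  obtain ⟨K', hK', hJK⟩ := hJ.subset_isBasis'_of_subset hJX
  exact (hK'.contract_indep_iff.1 h₁).1.subset (union_subset_union_right _ hJK)

/-- Basis of a union, from a basis of the contraction set and a contraction-independent set. -/
lemma isBasis_union_of (h₁ : (M ／ X).Indep I) (hD : M.IsBasis J X)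
    (hY : Y ⊆ M.closure (I ∪ X)) (hIY : I ⊆ Y) : M.IsBasis (I ∪ J) (Y ∪ X) := by
  have hind : M.Indep (I ∪ J) := indep_union_of_contract h₁ hD.indep hD.subset
  refine hind.isBasis_of_subset_of_subset_closure
    (union_subset_union hIY hD.subset) (union_subset ?_ ?_)
  · rw [closure_union_congr_right hD.closure_eq_closure]
    exact hY
  · exact subset_trans hD.subset_closure (M.closure_subset_closure subset_union_right)

section disjointSum

variable (h : Disjoint N₁.E N₂.E)

lemma sum_indep_union {I₁ I₂ : Set α} (h₁ : N₁.Indep I₁) (h₂ : N₂.Indep I₂) :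
    (N₁.disjointSum N₂ h).Indep (I₁ ∪ I₂) := by
  rw [disjointSum_indep_iff]
  have h1E := h₁.subset_ground
  have h2E := h₂.subset_ground
  refine ⟨h₁.subset ?_, h₂.subset ?_, union_subset_union h1E h2E⟩
  · rintro a ⟨ha | ha, ha'⟩
    · exact ha
    · exact absurd ha' (disjoint_right.1 h (h2E ha))
  · rintro a ⟨ha | ha, ha'⟩
    · exact absurd ha' (disjoint_left.1 h (h1E ha))
    · exact ha

lemma sum_restrict_left : (N₁.disjointSum N₂ h) ↾ N₁.E = N₁ := by
  refine ext_indep rfl ?_
  intro I hI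
  rw [restrict_indep_iff, disjointSum_indep_iff]
  change I ⊆ N₁.E at hI
  have hI1 : I ∩ N₁.E = I := inter_eq_self_of_subset_left hI
  have hI2 : I ∩ N₂.E = ∅ := by
    rw [← disjoint_iff_inter_eq_empty]
    exact h.mono_left hI
  rw [hI1, hI2]
  constructor
  · rintro ⟨⟨h1, -, -⟩, -⟩
    exact h1
  · intro h1
    exact ⟨⟨h1, N₂.empty_indep, subset_trans hI subset_union_left⟩, hI⟩

lemma sum_closure_left {X : Set α} (hX : X ⊆ N₁.E) :
    N₁.closure X ⊆ (N₁.disjointSum N₂ h).closure X := by
  have hg : N₁.E ⊆ (N₁.disjointSum N₂ h).E := by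
    rw [disjointSum_ground_eq]; exact subset_union_left
  have := restrict_closure_eq (N₁.disjointSum N₂ h) hX hg
  rw [sum_restrict_left] at this
  rw [this]
  exact inter_subset_left

lemma FD.sum {J₁ J₂ : Set α} (h₁ : FD N₁ J₁) (h₂ : FD N₂ J₂) :
    FD (N₁.disjointSum N₂ h) (J₁ ∪ J₂) := by
  obtain ⟨D₁, hD₁, hJ₁, hf₁⟩ := h₁
  obtain ⟨D₂, hD₂, hJ₂, hf₂⟩ := h₂
  refine ⟨D₁ ∪ D₂, ?_, union_subset_union hJ₁ hJ₂, (hf₁.union hf₂).subset ?_⟩
  · rw [disjointSum_isBase_iff]
    have h1E := hD₁.subset_ground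
    have h2E := hD₂.subset_ground
    have e1 : (D₁ ∪ D₂) ∩ N₁.E = D₁ := by
      ext a
      constructor
      · rintro ⟨ha | ha, ha'⟩
        · exact ha
        · exact absurd ha' (disjoint_right.1 h (h2E ha))
      · intro ha
        exact ⟨Or.inl ha, h1E ha⟩
    have e2 : (D₁ ∪ D₂) ∩ N₂.E = D₂ := by
      ext a
      constructor
      · rintro ⟨ha | ha, ha'⟩
        · exact absurd ha' (disjoint_left.1 h (h1E ha))
        · exact ha
      · intro ha
        exact ⟨Or.inr ha, h2E ha⟩
    rw [e1, e2]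
    exact ⟨hD₁, hD₂, union_subset_union h1E h2E⟩
  · rintro a ⟨ha | ha, ha'⟩
    · exact Or.inl ⟨ha, fun h' => ha' (Or.inl h')⟩
    · exact Or.inr ⟨ha, fun h' => ha' (Or.inr h')⟩

/-- If `M ／ E₂` and `N₁` satisfy intersection, and the restriction to `E₂` has finite `M`-defect,
then `M` and `N₁ ⊕ N₂` satisfy intersection. -/
lemma sat_peel (hE : M.E = N₁.E ∪ N₂.E) (hS : SatisfiesIntersection (M ／ N₂.E) N₁)
    {J₂ : Set α} (hJ₂M : (M ↾ N₂.E).Indep J₂) (hJ₂N : N₂.Indep J₂) (hFD : FD (M ↾ N₂.E) J₂) :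
    SatisfiesIntersection M (N₁.disjointSum N₂ h) := by
  obtain ⟨J₁M, J₁N, hd, h1, h2, h3⟩ := hS
  have h2E : N₂.E ⊆ M.E := hE ▸ subset_union_right
  have h1E : N₁.E ⊆ M.E := hE ▸ subset_union_left
  have hgr : (M ／ N₂.E).E = N₁.E := by
    rw [contract_ground, hE, union_sdiff_right]
    exact h.sdiff_eq_left
  rw [hgr] at h3
  set A := (M ／ N₂.E).closure J₁M with hA
  set C := N₁.E \ A with hC
  have hAE : A ⊆ N₁.E := hgr ▸ (M ／ N₂.E).closure_subset_ground _
  have hJ₁E : J₁M ∪ J₁N ⊆ N₁.E := h2.subset_ground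
  have hJ₁MA : J₁M ⊆ A :=
    (M ／ N₂.E).subset_closure J₁M (by rw [hgr]; exact subset_trans subset_union_left hJ₁E)
  have hCcl : C ⊆ N₁.closure J₁N := by
    rintro a ⟨ha, haA⟩
    rw [← h3] at ha
    rcases ha with h' | h'
    · exact absurd h' haA
    · exact h'
  have hJ₁NC : J₁N ⊆ C := by
    intro a ha
    refine ⟨hJ₁E (Or.inr ha), ?_⟩
    intro haA
    have haM : a ∉ J₁M := disjoint_right.1 hd ha
    have := h1.notMem_closure_sdiff_of_mem (Or.inr ha : a ∈ J₁M ∪ J₁N)
    refine this ((M ／ N₂.E).closure_subset_closure ?_ haA)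
    intro b hb
    refine ⟨Or.inl hb, ?_⟩
    rintro rfl
    exact haM hb
  have hgr' : M.E \ C = N₂.E ∪ A := by
    ext a
    constructor
    · rintro ⟨ha, haC⟩
      rw [hE] at ha
      rcases ha with ha | ha
      · refine Or.inr ?_
        by_contra hcon
        exact haC ⟨ha, hcon⟩
      · exact Or.inl ha
    · rintro (ha | ha)
      · exact ⟨h2E ha, fun hc => disjoint_left.1 h hc.1 ha⟩
      · exact ⟨h1E (hAE ha), fun hc => hc.2 ha⟩
  have hNE : M.E = (N₁.disjointSum N₂ h).E := by rw [disjointSum_ground_eq, hE]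
  have hJ₁MN : N₁.Indep J₁N := h2.subset subset_union_right
  have hNJ₁N : (N₁.disjointSum N₂ h).Indep J₁N := by
    have := sum_indep_union h hJ₁MN N₂.empty_indep
    rwa [union_empty] at this
  have hbasisC : (N₁.disjointSum N₂ h).IsBasis J₁N C :=
    hNJ₁N.isBasis_of_subset_of_subset_closure hJ₁NC
      (subset_trans hCcl (sum_closure_left h (subset_trans subset_union_right hJ₁E)))
  refine compose hNE hNJ₁N hJ₁NC
    hbasisC.subset_closure ?_ ?_
  · -- `J₁N` is independent after contracting the rest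
    rw [hgr', ← contract_contract]
    have hb : (M ／ N₂.E).IsBasis J₁M A :=
      (h1.subset subset_union_left).isBasis_of_subset_of_subset_closure hJ₁MA subset_rfl
    rw [hb.contract_indep_iff]
    refine ⟨by rwa [union_comm], ?_⟩
    rw [disjoint_right]
    intro a ha
    exact (hJ₁NC ha).2
  · -- apply the finite defect theorem on the rest
    obtain ⟨D₂, hD₂, hJD, hfin⟩ := hFD
    have hD₂b : M.IsBasis D₂ N₂.E := by
      rwa [isBase_restrict_iff h2E] at hD₂
    have hJ₂M' : M.Indep J₂ := (restrict_indep_iff.1 hJ₂M).1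
    have hJ₂E : J₂ ⊆ N₂.E := (restrict_indep_iff.1 hJ₂M).2
    have hJ₁M_K : (M ／ N₂.E).Indep J₁M := h1.subset subset_union_left
    have hbasis : M.IsBasis (J₁M ∪ D₂) (M.E \ C) := by
      rw [hgr', union_comm N₂.E A]
      refine isBasis_union_of hJ₁M_K hD₂b ?_ hJ₁MA
      intro a ha
      rw [hA, contract_closure_eq] at ha
      exact ha.1
    have hM' : (M ↾ (M.E \ C)).IsBase (J₁M ∪ D₂) := by
      rwa [isBase_restrict_iff sdiff_subset]
    have hJ₀M : (M ↾ (M.E \ C)).Indep (J₁M ∪ J₂) :=
      hM'.indep.subset (union_subset_union_right _ hJD)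
    have hJ₀N : ((N₁.disjointSum N₂ h) ／ C).Indep (J₁M ∪ J₂) := by
      rw [hbasisC.contract_indep_iff]
      refine ⟨?_, ?_⟩
      · have := sum_indep_union h h2 hJ₂N
        refine this.subset ?_
        rintro a ((ha | ha) | ha)
        · exact Or.inl (Or.inl ha)
        · exact Or.inr ha
        · exact Or.inl (Or.inr ha)
      · rw [disjoint_union_right]
        refine ⟨?_, ?_⟩
        · rw [disjoint_right]
          intro a ha
          exact fun hc => hc.2 (hJ₁MA ha)
        · rw [disjoint_right]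
          intro a ha hc
          exact disjoint_left.1 h hc.1 (hJ₂E ha)
    refine sat_of_FD ?_ hJ₀M hJ₀N (Or.inl ⟨J₁M ∪ D₂, hM', union_subset_union_right _ hJD, ?_⟩)
    · rw [restrict_ground_eq, contract_ground, hNE]
    · refine hfin.subset ?_
      rintro a ⟨ha | ha, ha'⟩
      · exact absurd (Or.inl ha) ha'
      · exact ⟨ha, fun hc => ha' (Or.inr hc)⟩

end disjointSum

/-- **Theorem.** Arbitrary `M` against a direct sum of two nearly uniform matroids. -/
theorem sat_disjointSum (h : Disjoint N₁.E N₂.E) (hE : M.E = N₁.E ∪ N₂.E)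
    (h₁ : NearlyUniform N₁) (h₂ : NearlyUniform N₂) :
    SatisfiesIntersection M (N₁.disjointSum N₂ h) := by
  have h2E : N₂.E ⊆ M.E := hE ▸ subset_union_right
  have h1E : N₁.E ⊆ M.E := hE ▸ subset_union_left
  have hgr1 : (M ／ N₂.E).E = N₁.E := by
    rw [contract_ground, hE, union_sdiff_right]
    exact h.sdiff_eq_left
  have hgr2 : (M ／ N₁.E).E = N₂.E := by
    rw [contract_ground, hE, union_sdiff_left]
    exact h.symm.sdiff_eq_left
  have hNE : M.E = (N₁.disjointSum N₂ h).E := by rw [disjointSum_ground_eq, hE]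
  -- the satisfied pieces
  have hS1 : SatisfiesIntersection (M ／ N₂.E) N₁ := by
    obtain ⟨J, a, b, c⟩ := h₁.types hgr1
    exact sat_of_FD hgr1 a b c
  have hS2 : SatisfiesIntersection (M ／ N₁.E) N₂ := by
    obtain ⟨J, a, b, c⟩ := h₂.types hgr2
    exact sat_of_FD hgr2 a b c
  obtain ⟨J₁, hJ₁M, hJ₁N, hJ₁ | hJ₁⟩ := h₁.types hgr1
  · -- `M`-defect on the contraction
    have hJ₁M' : M.Indep J₁ := hJ₁M.of_contract
    have hJ₁E : J₁ ⊆ N₁.E := hJ₁N.subset_ground
    obtain ⟨B₁, hB₁, hJB⟩ := hJ₁M'.subset_isBasis_of_subset hJ₁E h1E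
    obtain ⟨F, hF, hFE, hc | hc⟩ := h₁ B₁ hB₁.subset
    · -- the restriction to `E₁` has finite `M`-defect: peel with roles swapped
      have hcomm := disjointSum_comm (M := N₁) (N := N₂) (h := h)
      rw [hcomm]
      have hJ' : (M ↾ N₁.E).IsBase B₁ := by rwa [isBase_restrict_iff h1E]
      refine sat_peel h.symm (by rw [hE, union_comm]) hS2 (J₂ := B₁ \ F)
        (hJ'.indep.subset sdiff_subset) hc ⟨B₁, hJ', sdiff_subset, hF.subset ?_⟩
      rintro x ⟨hxB, hx⟩
      by_contra hxF
      exact hx ⟨hxB, hxF⟩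
    · -- choose an `N₁`-basis of `B₁` through `J₁`
      obtain ⟨X₁, hX₁, hJX⟩ := hJ₁N.subset_isBasis_of_subset hJB hB₁.subset
      have hX₁M : M.Indep X₁ := hB₁.indep.subset hX₁.subset
      have hX₁FD : FD N₁ X₁ := by
        refine FD.of_spanning hX₁.indep ?_ hF
        have hsub : X₁ ∪ F ⊆ N₁.E := union_subset hX₁.indep.subset_ground hFE
        rw [spanning_iff_closure_eq hsub, closure_union_congr_left hX₁.closure_eq_closure]
        exact hc.closure_eq
      have hX₁E : X₁ ⊆ N₁.E := hX₁.indep.subset_ground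
      have hE₂X : N₂.E ⊆ (M ／ X₁).E := by
        rw [contract_ground]
        exact subset_sdiff.2 ⟨h2E, (h.mono_left hX₁E).symm⟩
      obtain ⟨Y, hY⟩ := (M ／ X₁).exists_isBasis N₂.E hE₂X
      have hYind : M.Indep (Y ∪ X₁) := (hX₁M.contract_indep_iff.1 hY.indep).2
      have hYE : Y ⊆ N₂.E := hY.subset
      have hE₂cl : N₂.E ⊆ M.closure (Y ∪ X₁) := by
        intro a ha
        have := hY.subset_closure ha
        rw [contract_closure_eq] at this
        exact this.1
      obtain ⟨F₂, hF₂, hF₂E, hc₂ | hc₂⟩ := h₂ Y hYE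
      · -- finite `M`-defect
        obtain ⟨D₁, hD₁, hJD, hfin⟩ := hJ₁
        have hS : M.Spanning ((X₁ ∪ (Y \ F₂)) ∪ (F₂ ∪ (D₁ \ J₁))) := by
          have hsub : (X₁ ∪ (Y \ F₂)) ∪ (F₂ ∪ (D₁ \ J₁)) ⊆ M.E := by
            refine union_subset (union_subset (subset_trans hX₁E h1E)
              (subset_trans sdiff_subset (subset_trans hYE h2E))) (union_subset
              (subset_trans hF₂E h2E) ?_)
            refine subset_trans (subset_trans sdiff_subset hD₁.subset_ground) ?_
            exact sdiff_subset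
          rw [spanning_iff_ground_subset_closure hsub]
          set S := (X₁ ∪ (Y \ F₂)) ∪ (F₂ ∪ (D₁ \ J₁)) with hSdef
          have hYS : Y ∪ X₁ ⊆ S := by
            rintro a (ha | ha)
            · by_cases hz : a ∈ F₂
              · exact Or.inr (Or.inl hz)
              · exact Or.inl (Or.inr ⟨ha, hz⟩)
            · exact Or.inl (Or.inl ha)
          have hE₂S : N₂.E ⊆ M.closure S := subset_trans hE₂cl (M.closure_subset_closure hYS)
          have hD₁S : D₁ ⊆ S := by
            intro a ha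
            by_cases hz : a ∈ J₁
            · exact Or.inl (Or.inl (hJX hz))
            · exact Or.inr (Or.inr ⟨ha, hz⟩)
          have hcl : M.closure (D₁ ∪ N₂.E) ⊆ M.closure S := by
            refine M.closure_subset_closure_of_subset_closure (union_subset ?_ hE₂S)
            exact subset_trans hD₁S (M.subset_closure S hsub)
          rw [hE]
          refine union_subset ?_ hE₂S
          intro a ha
          have ha' : a ∈ (M ／ N₂.E).E := hgr1.symm ▸ ha
          rw [← hD₁.closure_eq, contract_closure_eq] at ha'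
          exact hcl ha'.1
        have hind : M.Indep (X₁ ∪ (Y \ F₂)) :=
          hYind.subset (union_subset subset_union_right
            (subset_trans sdiff_subset subset_union_left))
        refine sat_of_FD hNE hind (sum_indep_union h hX₁.indep hc₂) (Or.inl (FD.of_spanning hind hS
          (hF₂.union (hfin.subset ?_))))
        exact subset_rfl
      · -- finite `N`-defect
        obtain ⟨Y', hY'⟩ := N₂.exists_isBasis Y hYE
        have hY'FD : FD N₂ Y' := by
          refine FD.of_spanning hY'.indep ?_ hF₂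
          have hsub : Y' ∪ F₂ ⊆ N₂.E := union_subset hY'.indep.subset_ground hF₂E
          rw [spanning_iff_closure_eq hsub, closure_union_congr_left hY'.closure_eq_closure]
          exact hc₂.closure_eq
        have hind : M.Indep (X₁ ∪ Y') :=
          hYind.subset (union_subset subset_union_right
            (subset_trans hY'.subset subset_union_left))
        exact sat_of_FD hNE hind (sum_indep_union h hX₁.indep hY'.indep)
          (Or.inr (FD.sum h hX₁FD hY'FD))
  · -- `N`-defect on the contraction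
    have hgrr : (M ↾ N₂.E).E = N₂.E := rfl
    obtain ⟨J₂, hJ₂M, hJ₂N, hJ₂ | hJ₂⟩ := h₂.types hgrr
    · exact sat_peel h hE hS1 hJ₂M hJ₂N hJ₂
    · have hJ₂M' := restrict_indep_iff.1 hJ₂M
      have hind : M.Indep (J₁ ∪ J₂) := indep_union_of_contract hJ₁M hJ₂M'.1 hJ₂M'.2
      exact sat_of_FD hNE hind (sum_indep_union h hJ₁N hJ₂N) (Or.inr (FD.sum h hJ₁ hJ₂))

end Vale.Agent.Lib.P068
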