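import Vale.Agent.Lib.P068.Dag

/-!
# The window argument
-/

open Set Matroid

namespace Vale.Agent.Lib.P068

variable {α ι : Type*} {c : α → ι} {M : Matroid α} {N : ι → Matroid α} {W P R Z : Set ι} {g g' s : ι}
  {J V G : Set α}

/-- A top at colour `g`. -/
structure Top (c : α → ι) (M : Matroid α) (N : ι → Matroid α) (g : ι) (G : Set α) : Prop where
  ind : M.Indep G
  sub : G ⊆ c ⁻¹' {g}
  nind : (N g).Indep G
  fd : FD (N g) G

/-- A window started at colour `s`, currently at colour `g` with top `G`. -/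
structure Win (c : α → ι) (M : Matroid α) (N : ι → Matroid α) (W : Set ι) (s g : ι) (G : Set α)
    (P Z : Set ι) (V : Set α) : Prop where
  gP : g ∈ P
  cov : ∀ b ∈ W, b ∈ P ∨ b ∈ Z ∨ b = s
  PW : P ⊆ W
  disj : Disjoint P Z
  Vsub : V ⊆ c ⁻¹' P
  full : ∀ i ∈ P, (N i).Indep (V ∩ c ⁻¹' {i}) ∧ FD (N i) (V ∩ c ⁻¹' {i})
  ind : (M ／ c ⁻¹' Z).Indep V
  top : V ∩ c ⁻¹' {g} = G

lemma Inst.top_instance (hM : Inst c M N W) (g : ι) (G : Set α) :
    Inst c ((M ／ G) ↾ (M.E \ c ⁻¹' {g})) N (W \ {g}) := by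
  refine ⟨?_, ?_, fun i hi => hM.nu i hi.1⟩
  · rintro x ⟨hx, hxg⟩
    exact ⟨hM.sub hx, hxg⟩
  · rintro i ⟨hiW, hig⟩
    rw [hM.gr i hiW]
    ext x
    constructor
    · rintro ⟨hx, hi⟩
      refine ⟨⟨hx, ?_⟩, hi⟩
      intro hc
      have hci : c x = i := hi
      apply hig
      rw [← hci]
      exact hc
    · rintro ⟨⟨hx, -⟩, hi⟩
      exact ⟨hx, hi⟩

section outcome

variable (hG : G ⊆ c ⁻¹' {g}) (hS : IsSol c ((M ／ G) ↾ (M.E \ c ⁻¹' {g})) N (W \ {g}) R J)

include hS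

lemma IsSol.Jsub' : J ⊆ M.E \ c ⁻¹' {g} := hS.subset_ground

lemma IsSol.Rsub' : R ⊆ W \ {g} := hS.RW

include hG

lemma IsSol.over_top : (M ／ (G ∪ c ⁻¹' R)).Indep (J \ c ⁻¹' R) := by
  have h := hS.indS
  rw [← contract_contract]
  refine indep_of_restrict_contract h ?_ ?_
  · rw [contract_ground]
    rintro x ⟨hx, hxg⟩
    exact ⟨hx, fun h' => hxg (hG h')⟩
  · rintro x ⟨hx, hxE⟩
    rw [contract_ground] at hxE
    exact ⟨hxE.1, (hS.RW hx).2⟩

lemma IsSol.next_top (hg' : g' ∈ W \ {g}) (hg'R : g' ∉ R) :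
    Top c M N g' (J ∩ c ⁻¹' {g'}) := by
  have h1 := hS.over_top hG
  have h2 : M.Indep (J \ c ⁻¹' R) := h1.of_contract
  refine ⟨h2.subset ?_, inter_subset_right, hS.ind g' hg', hS.fdS g' ⟨hg', hg'R⟩⟩
  rintro x ⟨hx, hxc⟩
  refine ⟨hx, ?_⟩
  have h1 : c x = g' := hxc
  change c x ∉ R
  rw [h1]
  exact hg'R

/-- If every other colour lies in `R`, we have a solution with `R = W`. -/
lemma sol_of_covered (hM : Inst c M N W) (hg : g ∈ W) (hT : Top c M N g G)
    (hR : W \ {g} ⊆ R) (hDag : (M ／ c ⁻¹' {g}ᶜ).RankFinite) : Sol c M N W := by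
  have hJE : J ⊆ M.E \ c ⁻¹' {g} := hS.subset_ground
  have hRsub := hS.RW
  have hJG : J ∪ G ⊆ c ⁻¹' W := by
    rintro x (hx | hx)
    · exact hM.sub (hJE hx).1
    · exact hM.sub (hT.ind.subset_ground hx)
  have e1 : (J ∪ G) ∩ c ⁻¹' {g} = G := by
    ext x
    constructor
    · rintro ⟨hx | hx, hci⟩
      · exact absurd hci (hJE hx).2
      · exact hx
    · intro hx
      exact ⟨Or.inr hx, hG hx⟩
  have e2 : ∀ i, i ≠ g → (J ∪ G) ∩ c ⁻¹' {i} = J ∩ c ⁻¹' {i} := by
    intro i hi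
    ext x
    constructor
    · rintro ⟨hx | hx, hci⟩
      · exact ⟨hx, hci⟩
      · have h1 : c x = i := hci
        have h2 : c x = g := hG hx
        exact absurd (h1.symm.trans h2) hi
    · rintro ⟨hx, hci⟩
      exact ⟨Or.inl hx, hci⟩
  refine ⟨W, J ∪ G, subset_rfl, ?_, ?_, ?_, ?_⟩
  · intro i hi
    by_cases hig : i = g
    · subst hig
      rw [e1]
      exact hT.nind
    · rw [e2 i hig]
      exact hS.ind i ⟨hi, hig⟩
  · -- finite defect in `M`
    have e3 : M.E ∩ c ⁻¹' W = M.E := inter_eq_self_of_subset_left hM.sub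
    rw [e3, restrict_ground_eq_self, inter_eq_self_of_subset_left hJG]
    have hfd := hS.fdR
    have hE3 : ((M ／ G) ↾ (M.E \ c ⁻¹' {g})).E ∩ c ⁻¹' R = M.E \ c ⁻¹' {g} := by
      rw [restrict_ground_eq]
      refine inter_eq_self_of_subset_left ?_
      rintro x ⟨hx, hxg⟩
      exact hR ⟨hM.sub hx, hxg⟩
    have hJR : J ∩ c ⁻¹' R = J := by
      refine inter_eq_self_of_subset_left ?_
      intro x hx
      exact hR ⟨hM.sub (hJE hx).1, (hJE hx).2⟩
    rw [hE3, hJR, restrict_restrict_eq _ subset_rfl] at hfd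
    obtain ⟨A, hA, hJA, hfin⟩ := hfd
    have hsubcon : M.E \ c ⁻¹' {g} ⊆ (M ／ G).E := by
      rw [contract_ground]
      rintro x ⟨hx, hxg⟩
      exact ⟨hx, fun h' => hxg (hG h')⟩
    rw [isBase_restrict_iff hsubcon] at hA
    have hAind : M.Indep (A ∪ G) := (hT.ind.contract_indep_iff.1 hA.indep).2
    have hind : M.Indep (J ∪ G) := hAind.subset (union_subset_union_left _ hJA)
    obtain ⟨Bg, hBg, hBgfin⟩ := hDag.exists_finite_isBase
    have hBgE : Bg ⊆ M.E := by
      intro x hx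
      have := hBg.subset_ground hx
      rw [contract_ground] at this
      exact this.1
    refine FD.of_spanning hind (F := (A \ J) ∪ Bg) ?_ (hfin.union hBgfin)
    have hsub : (J ∪ G) ∪ ((A \ J) ∪ Bg) ⊆ M.E := by
      refine union_subset hind.subset_ground (union_subset ?_ hBgE)
      exact subset_trans sdiff_subset (subset_trans subset_union_left hAind.subset_ground)
    rw [spanning_iff_ground_subset_closure hsub]
    set S := (J ∪ G) ∪ ((A \ J) ∪ Bg) with hSdef
    have hAS : A ∪ G ⊆ S := by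
      rintro x (hx | hx)
      · by_cases hxJ : x ∈ J
        · exact Or.inl (Or.inl hxJ)
        · exact Or.inr (Or.inl ⟨hx, hxJ⟩)
      · exact Or.inl (Or.inr hx)
    have hother : M.E \ c ⁻¹' {g} ⊆ M.closure S := by
      intro x hx
      have := hA.subset_closure hx
      rw [contract_closure_eq] at this
      exact M.closure_subset_closure hAS this.1
    intro x hx
    by_cases hxg : c x = g
    · have hxE : x ∈ (M ／ c ⁻¹' {g}ᶜ).E := by
        rw [contract_ground]
        exact ⟨hx, fun hc => hc hxg⟩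
      rw [← hBg.closure_eq, contract_closure_eq] at hxE
      have hcl : M.closure (Bg ∪ c ⁻¹' {g}ᶜ) ⊆ M.closure S := by
        rw [← M.closure_inter_ground]
        refine M.closure_subset_closure_of_subset_closure ?_
        rintro y ⟨hy | hy, hyE⟩
        · exact M.subset_closure S hsub (Or.inr (Or.inr hy))
        · exact hother ⟨hyE, hy⟩
      exact hcl hxE.1
    · exact hother ⟨hx, hxg⟩
  · have e4 : (J ∪ G) \ c ⁻¹' W = ∅ := by
      ext x
      constructor
      · rintro ⟨h1, h2⟩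
        exact absurd (hJG h1) h2
      · intro h1
        exact absurd h1 (notMem_empty x)
    rw [e4]
    exact empty_indep _
  · rintro i ⟨hi, hi'⟩
    exact absurd hi hi'

/-- A new window, started at the current colour. -/
lemma win_start (hM : Inst c M N W) (hg' : g' ∈ W \ {g}) (hg'R : g' ∉ R) :
    Win c M N W g g' (J ∩ c ⁻¹' {g'}) ((W \ {g}) \ R) R (J \ c ⁻¹' R) := by
  have hJE : J ⊆ M.E \ c ⁻¹' {g} := hS.subset_ground
  refine ⟨⟨hg', hg'R⟩, ?_, ?_, ?_, ?_, ?_, ?_, ?_⟩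
  · intro b hb
    by_cases hbg : b = g
    · exact Or.inr (Or.inr hbg)
    · by_cases hbR : b ∈ R
      · exact Or.inr (Or.inl hbR)
      · exact Or.inl ⟨⟨hb, hbg⟩, hbR⟩
  · exact subset_trans sdiff_subset sdiff_subset
  · exact disjoint_sdiff_left
  · rintro x ⟨hx, hxR⟩
    exact ⟨⟨hM.sub (hJE hx).1, (hJE hx).2⟩, hxR⟩
  · rintro i ⟨hi, hiR⟩
    have e : (J \ c ⁻¹' R) ∩ c ⁻¹' {i} = J ∩ c ⁻¹' {i} := by
      ext x
      constructor
      · rintro ⟨⟨hx, -⟩, hc⟩
        exact ⟨hx, hc⟩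
      · rintro ⟨hx, hc⟩
        refine ⟨⟨hx, ?_⟩, hc⟩
        have h1 : c x = i := hc
        change c x ∉ R
        rw [h1]
        exact hiR
    rw [e]
    exact ⟨hS.ind i hi, hS.fdS i ⟨hi, hiR⟩⟩
  · exact over_mono (hS.over_top hG) subset_union_right
  · ext x
    constructor
    · rintro ⟨⟨hx, -⟩, hc⟩
      exact ⟨hx, hc⟩
    · rintro ⟨hx, hc⟩
      refine ⟨⟨hx, ?_⟩, hc⟩
      have h1 : c x = g' := hc
      change c x ∉ R
      rw [h1]
      exact hg'R

/-- Updating a window. -/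
lemma Win.update (hw : Win c M N W s g G P Z V) (hM : Inst c M N W) (hg' : g' ∈ W \ {g})
    (hg'R : g' ∉ R) :
    Win c M N W s g' (J ∩ c ⁻¹' {g'}) (P ∪ ((W \ {g}) \ R)) (Z ∩ R)
      ((V ∩ c ⁻¹' R) ∪ G ∪ (J \ c ⁻¹' R)) := by
  have hJE : J ⊆ M.E \ c ⁻¹' {g} := hS.subset_ground
  have hRsub : R ⊆ W \ {g} := hS.RW
  have hGV : G ⊆ V := by
    rw [← hw.top]
    exact inter_subset_left
  have hgR : g ∉ R := fun hc => (hRsub hc).2 rfl
  have e1 : ∀ i, i ∈ (W \ {g}) \ R →
      ((V ∩ c ⁻¹' R) ∪ G ∪ (J \ c ⁻¹' R)) ∩ c ⁻¹' {i} = J ∩ c ⁻¹' {i} := by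
    rintro i ⟨⟨hiW, hig⟩, hiR⟩
    ext x
    constructor
    · rintro ⟨(⟨hx, hxR⟩ | hx) | ⟨hx, hxR⟩, hc⟩
      · have h1 : c x = i := hc
        have h2 : c x ∈ R := hxR
        rw [h1] at h2
        exact absurd h2 hiR
      · have h1 : c x = i := hc
        have h2 : c x = g := hG hx
        exact absurd (h1.symm.trans h2) hig
      · exact ⟨hx, hc⟩
    · rintro ⟨hx, hc⟩
      refine ⟨Or.inr ⟨hx, ?_⟩, hc⟩
      have h1 : c x = i := hc
      change c x ∉ R
      rw [h1]
      exact hiR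
  have e2 : ((V ∩ c ⁻¹' R) ∪ G ∪ (J \ c ⁻¹' R)) ∩ c ⁻¹' {g} = V ∩ c ⁻¹' {g} := by
    rw [hw.top]
    ext x
    constructor
    · rintro ⟨(⟨hx, hxR⟩ | hx) | ⟨hx, hxR⟩, hc⟩
      · have h1 : c x = g := hc
        have h2 : c x ∈ R := hxR
        rw [h1] at h2
        exact absurd h2 hgR
      · exact hx
      · exact absurd hc (hJE hx).2
    · intro hx
      exact ⟨Or.inl (Or.inr hx), hG hx⟩
  have e3 : ∀ i, i ∈ R → ((V ∩ c ⁻¹' R) ∪ G ∪ (J \ c ⁻¹' R)) ∩ c ⁻¹' {i} = V ∩ c ⁻¹' {i} := by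
    intro i hi
    ext x
    constructor
    · rintro ⟨(⟨hx, hxR⟩ | hx) | ⟨hx, hxR⟩, hc⟩
      · exact ⟨hx, hc⟩
      · have h1 : c x = i := hc
        have h2 : c x = g := hG hx
        rw [h1] at h2
        rw [h2] at hi
        exact absurd hi hgR
      · have h1 : c x = i := hc
        apply absurd _ hxR
        change c x ∈ R
        rw [h1]
        exact hi
    · rintro ⟨hx, hc⟩
      refine ⟨Or.inl (Or.inl ⟨hx, ?_⟩), hc⟩
      have h1 : c x = i := hc
      change c x ∈ R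
      rw [h1]
      exact hi
  refine ⟨Or.inr ⟨hg', hg'R⟩, ?_, ?_, ?_, ?_, ?_, ?_, ?_⟩
  · intro b hb
    rcases hw.cov b hb with h | h | h
    · exact Or.inl (Or.inl h)
    · by_cases hbR : b ∈ R
      · exact Or.inr (Or.inl ⟨h, hbR⟩)
      · left
        right
        refine ⟨⟨hb, ?_⟩, hbR⟩
        rintro rfl
        exact disjoint_left.1 hw.disj hw.gP h
    · exact Or.inr (Or.inr h)
  · exact union_subset hw.PW (subset_trans sdiff_subset sdiff_subset)
  · rw [disjoint_union_left]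
    refine ⟨hw.disj.mono_right inter_subset_left, ?_⟩
    rw [disjoint_left]
    rintro i ⟨-, hiR⟩ ⟨-, hi⟩
    exact hiR hi
  · rintro x ((⟨hx, -⟩ | hx) | ⟨hx, hxR⟩)
    · exact Or.inl (hw.Vsub hx)
    · exact Or.inl (hw.Vsub (hGV hx))
    · exact Or.inr ⟨⟨hM.sub (hJE hx).1, (hJE hx).2⟩, hxR⟩
  · intro i hi
    by_cases hS' : i ∈ (W \ {g}) \ R
    · rw [e1 i hS']
      exact ⟨hS.ind i hS'.1, hS.fdS i hS'⟩
    · have hiP : i ∈ P := by
        rcases hi with hi | hi
        · exact hi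
        · exact absurd hi hS'
      by_cases hig : i = g
      · subst hig
        rw [e2]
        exact hw.full i hiP
      · have hiR : i ∈ R := by
          by_contra hc
          exact hS' ⟨⟨hw.PW hiP, hig⟩, hc⟩
        rw [e3 i hiR]
        exact hw.full i hiP
  · -- independence
    have h1 : (M ／ c ⁻¹' (Z ∩ R)).Indep ((V ∩ c ⁻¹' R) ∪ G) := by
      refine over_mono (hw.ind.subset ?_) (fun x hx => hx.1)
      exact union_subset inter_subset_left hGV
    have h2 := over_union h1 (hS.over_top hG) (Y := G ∪ c ⁻¹' R)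
      (by
        rintro x (⟨-, hx⟩ | hx)
        · exact Or.inr hx
        · exact Or.inl hx)
      (fun x hx => Or.inr hx.2)
    rwa [union_comm]
  · exact e1 g' ⟨hg', hg'R⟩

end outcome

/-- A window whose start has been reached yields a solution. -/
lemma Win.sol (hw : Win c M N W s s G P Z V) (hM : Inst c M N W)
    (ih : Sol c (M ↾ (M.E \ c ⁻¹' P)) N (W \ P)) : Sol c M N W := by
  have e : M ／ c ⁻¹' Pᶜ = M ／ c ⁻¹' Z := by
    rw [contract_eq_contract_iff]
    ext x
    constructor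
    · rintro ⟨hx, hxE⟩
      refine ⟨?_, hxE⟩
      rcases hw.cov (c x) (hM.sub hxE) with h | h | h
      · exact absurd h hx
      · exact h
      · have hx' : c x ∉ P := hx
        rw [h] at hx'
        exact absurd hw.gP hx'
    · rintro ⟨hx, hxE⟩
      exact ⟨fun hc => disjoint_left.1 hw.disj hc hx, hxE⟩
  exact glue_psi ih hw.Vsub (e ▸ hw.ind) hw.full

/-- The main descent along tops. -/
lemma descent (hM : Inst c M N W) (hWfin : W.Finite)
    (ih : ∀ W' : Set ι, W' ⊂ W → ∀ K : Matroid α, Inst c K N W' → Sol c K N W')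
    (hDag : ∀ g ∈ W, (M ／ c ⁻¹' {g}ᶜ).RankFinite) (hns : ¬ Sol c M N W) :
    ∀ n : ℕ, ∀ Vis : Set ι, (W \ Vis).ncard ≤ n → ∀ (g : ι) (G : Set α), Top c M N g G → g ∈ W →
      g ∉ Vis → (∀ s ∈ Vis, ∃ P Z V, Win c M N W s g G P Z V) → False := by
  intro n
  induction n with
  | zero =>
    intro Vis hn g G _ hg hgV _
    have hfin : (W \ Vis).Finite := hWfin.subset sdiff_subset
    have := (ncard_eq_zero hfin).1 (Nat.le_zero.1 hn)
    have hmem : g ∈ W \ Vis := ⟨hg, hgV⟩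
    rw [this] at hmem
    exact hmem
  | succ n IH =>
    intro Vis hn g G hT hg hgV hwin
    have hsub : W \ {g} ⊂ W := by
      refine ⟨sdiff_subset, fun hc => (hc hg).2 rfl⟩
    obtain ⟨R, J, hS⟩ := ih _ hsub _ (hM.top_instance g G)
    by_cases hcov : W \ {g} ⊆ R
    · exact hns (sol_of_covered hT.sub hS hM hg hT hcov (hDag g hg))
    · obtain ⟨g', hg', hg'R⟩ := not_subset.1 hcov
      have hT' := hS.next_top hT.sub hg' hg'R
      by_cases hg'V : g' ∈ Vis
      · obtain ⟨P, Z, V, hw⟩ := hwin g' hg'V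
        have hw' := hw.update hT.sub hS hM hg' hg'R
        refine hns (hw'.sol hM (ih _ ?_ _ (hM.restrict_away _)))
        refine ⟨sdiff_subset, fun hc => ?_⟩
        exact (hc (hw'.PW hw'.gP)).2 hw'.gP
      · refine IH (insert g Vis) ?_ g' _ hT' hg'.1 ?_ ?_
        · have e : W \ insert g Vis = (W \ Vis) \ {g} := by
            ext x
            simp only [mem_sdiff, mem_insert_iff, mem_singleton_iff, not_or]
            tauto
          rw [e, ncard_sdiff_singleton_of_mem (show g ∈ W \ Vis from ⟨hg, hgV⟩)]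
          omega
        · rintro (h | h)
          · exact hg'.2 h
          · exact hg'V h
        · rintro s (rfl | hs)
          · exact ⟨_, _, _, win_start hT.sub hS hM hg' hg'R⟩
          · obtain ⟨P, Z, V, hw⟩ := hwin s hs
            exact ⟨_, _, _, hw.update hT.sub hS hM hg' hg'R⟩

/-- The dag case. -/
lemma sol_of_dag (hM : Inst c M N W) (hWfin : W.Finite)
    (ih : ∀ W' : Set ι, W' ⊂ W → ∀ K : Matroid α, Inst c K N W' → Sol c K N W')
    (hDag : ∀ g ∈ W, (M ／ c ⁻¹' {g}ᶜ).RankFinite) (hne : W.Nonempty) : Sol c M N W := by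
  by_contra hns
  obtain ⟨g, hg⟩ := hne
  have hsub : W \ {g} ⊂ W := by
    refine ⟨sdiff_subset, fun hc => (hc hg).2 rfl⟩
  rcases top_dichotomy hM hg (ih _ hsub _ (hM.contract_color g)) with h | ⟨G, h1, h2, h3, h4⟩
  · exact hns h
  · exact descent hM hWfin ih hDag hns _ ∅ le_rfl g G ⟨h1, h2, h3, h4⟩ hg (notMem_empty g)
      (fun s hs => absurd hs (notMem_empty s))

/-- The main theorem on coloured instances. -/
theorem sol_of_inst : ∀ n : ℕ, ∀ W : Set ι, W.Finite → W.ncard ≤ n →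
    ∀ (M : Matroid α) (N : ι → Matroid α), Inst c M N W → Sol c M N W := by
  intro n
  induction n with
  | zero =>
    intro W hW hn M N hM
    have hWe : W = ∅ := (ncard_eq_zero hW).1 (Nat.le_zero.1 hn)
    subst hWe
    obtain ⟨D, hD⟩ := (M ↾ (M.E ∩ c ⁻¹' ∅)).exists_isBase
    have hDe : D = ∅ := by
      have := hD.subset_ground
      rw [restrict_ground_eq] at this
      simpa using this
    subst hDe
    refine ⟨∅, ∅, subset_rfl, ?_, ?_, ?_, ?_⟩
    · intro i hi
      exact absurd hi (notMem_empty i)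
    · exact ⟨∅, hD, by simp, by simp⟩
    · simp
    · rintro i ⟨hi, -⟩
      exact absurd hi (notMem_empty i)
  | succ n IH =>
    intro W hW hn M N hM
    by_cases hne : W.Nonempty
    · have ih : ∀ W' : Set ι, W' ⊂ W → ∀ (K : Matroid α) (N' : ι → Matroid α),
          Inst c K N' W' → Sol c K N' W' := by
        intro W' hW' K N' hK
        refine IH W' (hW.subset hW'.1) ?_ K N' hK
        have := ncard_lt_ncard hW' hW
        omega
      have hP : ∀ P : Set ι, P ⊆ W → P.Nonempty → Sol c (M ↾ (M.E \ c ⁻¹' P)) N (W \ P) := by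
        rintro P hP ⟨p, hp⟩
        refine ih _ ⟨sdiff_subset, fun hc => (hc (hP hp)).2 hp⟩ _ _ (hM.restrict_away P)
      rcases reduce_dag hP hM with h | ⟨D, hD1, hD2, hD3⟩
      · exact h
      · refine lift_sol hD1 hD2 hD3 (sol_of_dag (hM.contract_all hD1 hD2) hW
          (fun W' hW' K hK => ih W' hW' K _ hK) (fun g hg => dag_of_contract_all hD1 hD3 hg) hne)
    · rw [not_nonempty_iff_eq_empty] at hne
      exact IH W hW (by simp [hne]) M N hM

end Vale.Agent.Lib.P068
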